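import Vale.Agent.P133.Basic

/-! The good submodule. -/

namespace Vale.Agent.P133

universe u

variable {U : Type u} [CStarAlgebra U] [PartialOrder U] [StarOrderedRing U]

theorem Rep.map_rsmul (φ : Rep U) (t : ℝ) (x : U) : φ.π (t • x) = t • φ.π x := by
  rw [← Complex.coe_smul, map_smul, Complex.coe_smul]

theorem comb {c a₁ a₂ k₁ k W : U} {ρ κ : ℝ} (hW : 0 ≤ W) (hρ : 0 < ρ) (hκ : 0 ≤ κ)
    (hk₁ : InR k₁ W) (h₁ : Cov a₁ (cut W ρ))
    (h₂ : ∀ φ : Rep U, κ ^ 2 • φ.π (star k * k) ≤ φ.π (star (c * k) * pl W ρ * (c * k)) →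
      ‖φ.π a₂‖ < 1) : Good c a₁ a₂ k₁ k κ := by
  have hW' : IsSelfAdjoint W := .of_nonneg hW
  have w0 := pl_nonneg hW hρ
  have w1 := pl_le_one hW' hρ
  set w := pl W ρ with hw
  set M : U := κ ^ 2 • (star k * k) - star (c * k) * w * (c * k) with hM
  have hMs : IsSelfAdjoint M := by
    refine IsSelfAdjoint.sub (IsSelfAdjoint.smul (IsSelfAdjoint.all _) (.star_mul_self k)) ?_
    exact .of_nonneg (star_left_conjugate_nonneg w0 _)
  set d := cut M 0 with hd
  have hds : IsSelfAdjoint d := cut_sa _ _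
  have hd0 : 0 ≤ d := cut_nonneg _ _
  have hcube : d * M * d = d * d * d := cut_zero_conj hMs
  have hexp : ∀ r : U, star (d * r) * M * (d * r) =
      κ ^ 2 • (star (k * d * r) * (k * d * r)) - star (c * (k * d * r)) * w * (c * (k * d * r)) := by
    intro r
    simp only [hM, star_mul, mul_sub, sub_mul, mul_smul_comm, smul_mul_assoc, mul_assoc]
  refine ⟨cut W ρ, k * d, hk₁.trans (inR_cut hW' hρ), InR.self_mul _ _, h₁, fun φ hφ => ?_, ?_⟩
  · apply h₂ φ
    have h3 : φ.π (d * d * d) = 0 := by
      rw [← hcube]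
      have := hexp 1
      simp only [mul_one, hds.star_eq] at this
      rw [this, map_sub, φ.map_rsmul]
      simp only [map_mul φ.π _ (k * d), map_mul φ.π _ (c * (k * d)), map_mul φ.π c, hφ, mul_zero,
        smul_zero, sub_zero]
    have h4 : φ.π d = 0 := by
      have hs : IsSelfAdjoint (φ.π d) := hds.map φ.π
      have h5 : star (φ.π d * φ.π d) * (φ.π d * φ.π d) = 0 := by
        rw [star_mul, hs.star_eq, ← mul_assoc, ← map_mul, ← map_mul, h3, zero_mul]
      rw [CStarRing.star_mul_self_eq_zero_iff] at h5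
      nth_rewrite 1 [← hs.star_eq] at h5
      exact (CStarRing.star_mul_self_eq_zero_iff _).1 h5
    have h6 := (map_cut_zero_eq_zero_iff φ hMs).1 h4
    rw [hM, map_sub, φ.map_rsmul] at h6
    exact sub_nonpos.1 h6
  · intro x y hx hy
    obtain ⟨r, rfl⟩ := hy
    set y := k * d * r with hy
    have hpos : 0 ≤ star (d * r) * M * (d * r) := by
      have : star (d * r) * M * (d * r) = star (d * r) * d * (d * r) := by
        rw [star_mul, hds.star_eq]
        calc star r * d * M * (d * r) = star r * (d * M * d) * r := by noncomm_ring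
          _ = star r * d * d * (d * r) := by rw [hcube]; noncomm_ring
      rw [this]; exact star_left_conjugate_nonneg hd0 _
    rw [hexp r] at hpos
    have hx1 : x * star x ≤ ‖x‖ ^ 2 • w := mul_star_le_of_fix w0 w1 (hx.fix (pl_mul_cut hW' hρ))
    have h7 := star_left_conjugate_le_conjugate hx1 (c * y)
    have h8 : star (star x * c * y) * (star x * c * y) ≤ (‖x‖ ^ 2 * κ ^ 2) • (star y * y) := by
      calc star (star x * c * y) * (star x * c * y)
          = star (c * y) * (x * star x) * (c * y) := by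
            simp only [star_mul, star_star, mul_assoc]
        _ ≤ star (c * y) * (‖x‖ ^ 2 • w) * (c * y) := h7
        _ = ‖x‖ ^ 2 • (star (c * y) * w * (c * y)) := by
            rw [mul_smul_comm, smul_mul_assoc]
        _ ≤ ‖x‖ ^ 2 • (κ ^ 2 • (star y * y)) :=
            smul_le_smul_of_nonneg_left (sub_nonneg.1 hpos) (by positivity)
        _ = _ := by rw [smul_smul]
    have h9 := norm_sq_le_of_le h8
    rw [norm_smul, CStarRing.norm_star_mul_self, Real.norm_of_nonneg (by positivity)] at h9
    refine le_of_pow_le_pow_left₀ two_ne_zero (by positivity) ?_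
    calc ‖star x * c * y‖ ^ 2 ≤ _ := h9
      _ = _ := by ring

end Vale.Agent.P133
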