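import Mathlib

/-! P133: the notions of the problem. -/

namespace Vale.Agent.P133

open Filter Topology Matrix

variable (C : Type*) [NonUnitalCStarAlgebra C] [PartialOrder C] [StarOrderedRing C]

variable {C} in
/-- Cuntz comparison `u ≾ v` of an `n × n` matrix `u` and an `m × m` matrix `v` over `C`:
there are `m × n` matrices `x j` over `C` with `(x j)* v (x j) → u` (entrywise norm convergence,
which for matrices of fixed finite size is convergence in the C*-norm). -/
def CuntzLE {n m : ℕ} (u : Matrix (Fin n) (Fin n) C) (v : Matrix (Fin m) (Fin m) C) : Prop :=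
  ∃ x : ℕ → Matrix (Fin m) (Fin n) C, Tendsto (fun j => (x j)ᴴ * v * x j) atTop (𝓝 u)

variable {C} in
/-- `h` is properly infinite: `diag(h, h) ≾ h`. -/
def ProperlyInfinite (h : C) : Prop :=
  CuntzLE (Matrix.diagonal (fun _ : Fin 2 => h)) (Matrix.diagonal (fun _ : Fin 1 => h))

/-- every positive element is properly infinite -/
def PurelyInfinite : Prop := ∀ h : C, 0 ≤ h → ProperlyInfinite h

/-- strongly purely infinite -/
def StronglyPurelyInfinite : Prop :=
  ∀ x y : C, 0 ≤ x → 0 ≤ y → ∀ ε : ℝ, 0 < ε → ∃ s t : C,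
    ‖star s * (x * x) * s - x * x‖ < ε ∧ ‖star t * (y * y) * t - y * y‖ < ε ∧
      ‖star s * (x * y) * t‖ < ε

end Vale.Agent.P133
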