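import Vale.Agent.P133.Quot

/-! Openness of `Cov`, normalisation, plateau elements. -/

namespace Vale.Agent.P133

universe u

variable {U : Type u} [CStarAlgebra U]

theorem span_bound {k j : U} (hj : j ∈ TwoSidedIdeal.span {k}) :
    ∃ C : ℝ, 0 ≤ C ∧ ∀ φ : Rep U, ‖φ.π j‖ ≤ C * ‖φ.π k‖ := by
  induction hj using TwoSidedIdeal.span_induction with
  | mem x h => exact ⟨1, zero_le_one, fun φ => by rw [Set.mem_singleton_iff.1 h, one_mul]⟩
  | zero => exact ⟨0, le_rfl, fun φ => by simp⟩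
  | add x y _ _ hx hy =>
    obtain ⟨C, hC, h⟩ := hx
    obtain ⟨D, hD, h'⟩ := hy
    refine ⟨C + D, by positivity, fun φ => ?_⟩
    rw [map_add, add_mul]
    exact (norm_add_le _ _).trans (add_le_add (h φ) (h' φ))
  | neg x _ hx =>
    obtain ⟨C, hC, h⟩ := hx
    exact ⟨C, hC, fun φ => by rw [map_neg, norm_neg]; exact h φ⟩
  | left_absorb a x _ hx =>
    obtain ⟨C, hC, h⟩ := hx
    refine ⟨‖a‖ * C, by positivity, fun φ => ?_⟩
    rw [map_mul, mul_assoc]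
    exact (norm_mul_le _ _).trans
      (mul_le_mul (φ.norm_le a) (h φ) (norm_nonneg _) (norm_nonneg _))
  | right_absorb a x _ hx =>
    obtain ⟨C, hC, h⟩ := hx
    refine ⟨‖a‖ * C, by positivity, fun φ => ?_⟩
    rw [map_mul, mul_assoc]
    refine (norm_mul_le _ _).trans ?_
    rw [mul_comm]
    exact mul_le_mul (φ.norm_le a) (h φ) (norm_nonneg _) (norm_nonneg _)

theorem Cov.unif {a k : U} (h : Cov a k) :
    ∃ α C : ℝ, 0 ≤ α ∧ α < 1 ∧ 0 ≤ C ∧ ∀ φ : Rep U, ‖φ.π a‖ ≤ α + C * ‖φ.π k‖ := by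
  obtain ⟨q, -, hq, hd⟩ := exists_quot (TwoSidedIdeal.span {k})
  have h1 := h q (hq k (TwoSidedIdeal.subset_span rfl))
  obtain ⟨j, hj, hlt⟩ := hd a (1 - ‖q.π a‖) (by linarith)
  obtain ⟨C, hC, hb⟩ := span_bound hj
  refine ⟨‖a - j‖, C, norm_nonneg _, by linarith, hC, fun φ => ?_⟩
  have e : φ.π a = φ.π (a - j) + φ.π j := by rw [← map_add, sub_add_cancel]
  rw [e]
  exact (norm_add_le _ _).trans (add_le_add (φ.norm_le _) (hb φ))

theorem Cov.dom {a k : U} (h : Cov a k) :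
    ∃ δ : ℝ, 0 < δ ∧ ∀ φ : Rep U, ‖φ.π k‖ ≤ δ → ‖φ.π a‖ < 1 := by
  obtain ⟨α, C, h0, h1, hC, hb⟩ := h.unif
  refine ⟨(1 - α) / (2 * (C + 1)), div_pos (by linarith) (by positivity), fun φ hφ => ?_⟩
  have h2 : C * ‖φ.π k‖ ≤ (C + 1) * ((1 - α) / (2 * (C + 1))) :=
    mul_le_mul (by linarith) hφ (norm_nonneg _) (by positivity)
  have h3 : (C + 1) * ((1 - α) / (2 * (C + 1))) = (1 - α) / 2 := by field_simp
  have := hb φ
  linarith

theorem Rep.norm_mul_star (φ : Rep U) (x : U) : ‖φ.π (x * star x)‖ = ‖φ.π x‖ ^ 2 := by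
  rw [map_mul, map_star, CStarRing.norm_self_mul_star, sq]

theorem Rep.norm_star_mul (φ : Rep U) (x : U) : ‖φ.π (star x * x)‖ = ‖φ.π x‖ ^ 2 := by
  rw [map_mul, map_star, CStarRing.norm_star_mul_self, sq]

variable [PartialOrder U] [StarOrderedRing U]

theorem exists_nrm (y : U) {δ : ℝ} (hδ : 0 < δ) :
    ∃ z : U, InR y z ∧ ‖z‖ ≤ 1 ∧ ∀ φ : Rep U, ‖φ.π z‖ < 1 → ‖φ.π y‖ < δ := by
  refine ⟨pl (y * star y) (δ ^ 2), (InR.self_mul y _).trans (inR_pl _ _),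
    norm_pl_le (mul_star_self_nonneg y) (by positivity), fun φ hφ => ?_⟩
  have := map_norm_lt_of_pl φ (mul_star_self_nonneg y) (by positivity) hφ
  rw [φ.norm_mul_star] at this
  exact lt_of_pow_lt_pow_left₀ 2 hδ.le this

theorem Cov.nrm {a k : U} (h : Cov a k) :
    ∃ e : U, InR k e ∧ ‖e‖ ≤ 1 ∧ ∀ φ : Rep U, ‖φ.π e‖ < 1 → ‖φ.π a‖ < 1 := by
  obtain ⟨δ, hδ, hd⟩ := h.dom
  obtain ⟨z, h1, h2, h3⟩ := exists_nrm k hδ
  exact ⟨z, h1, h2, fun φ hφ => hd φ (h3 φ hφ).le⟩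

theorem Cov.exists_cut {a k : U} (h : Cov a k) :
    ∃ δ : ℝ, 0 < δ ∧ Cov a (cut (k * star k) δ) := by
  obtain ⟨δ, hδ, hd⟩ := h.dom
  refine ⟨δ ^ 2, by positivity, fun φ hφ => hd φ ?_⟩
  rw [map_cut_eq_zero_iff φ (mul_star_self_nonneg k) (by positivity), φ.norm_mul_star] at hφ
  exact le_of_pow_le_pow_left₀ two_ne_zero hδ.le hφ

theorem Cov.plat2 {a k₁ k₂ : U} (h₁ : Cov a k₁) (h₂ : Cov a k₂) :
    ∃ b : U, 0 ≤ b ∧ b ≤ 1 ∧ (∀ φ : Rep U, φ.π k₁ = 0 → φ.π b = 0) ∧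
      (∀ φ : Rep U, φ.π k₂ = 0 → φ.π b = 0) ∧ ∀ φ : Rep U, ‖φ.π b‖ < 1 → ‖φ.π a‖ < 1 := by
  obtain ⟨α, C, h0, h1, -, hb⟩ := h₁.unif
  obtain ⟨β, D, g0, g1, -, gb⟩ := h₂.unif
  set m := max α β with hm
  have hm0 : 0 ≤ m := le_max_of_le_left h0
  have hm1 : m < 1 := max_lt h1 g1
  have hm2 : m ^ 2 < 1 := by nlinarith
  have key : ∀ φ : Rep U, ‖φ.π a‖ ≤ m →
      φ.π (pl (cut (star a * a) (m ^ 2)) (1 - m ^ 2)) = 0 := by
    intro φ hφ
    refine (inR_pl _ _).map_eq_zero φ ?_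
    rw [map_cut_eq_zero_iff φ (star_mul_self_nonneg a) (by positivity), φ.norm_star_mul]
    exact pow_le_pow_left₀ (norm_nonneg _) hφ 2
  refine ⟨pl (cut (star a * a) (m ^ 2)) (1 - m ^ 2), pl_nonneg (cut_nonneg _ _) (by linarith),
    pl_le_one (cut_sa _ _) (by linarith), fun φ hφ => key φ ?_, fun φ hφ => key φ ?_,
    fun φ hφ => ?_⟩
  · have := hb φ
    rw [hφ, norm_zero, mul_zero, add_zero] at this
    exact this.trans (le_max_left _ _)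
  · have := gb φ
    rw [hφ, norm_zero, mul_zero, add_zero] at this
    exact this.trans (le_max_right _ _)
  · have h3 := map_norm_lt_of_pl φ (cut_nonneg _ _) (by linarith) hφ
    have h4 := (φ.norm_le _).trans (norm_sub_cut_le (star_mul_self_nonneg a) (sq_nonneg m))
    have e : φ.π (star a * a) = φ.π (star a * a - cut (star a * a) (m ^ 2)) +
        φ.π (cut (star a * a) (m ^ 2)) := by rw [← map_add, sub_add_cancel]
    have h5 := norm_add_le (φ.π (star a * a - cut (star a * a) (m ^ 2)))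
      (φ.π (cut (star a * a) (m ^ 2)))
    rw [← e, φ.norm_star_mul] at h5
    have : ‖φ.π a‖ ^ 2 < 1 := by linarith
    nlinarith [norm_nonneg (φ.π a)]

end Vale.Agent.P133
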