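import Vale.Agent.P133.GainA

/-! The universal gain. -/

namespace Vale.Agent.P133

universe u

variable {U : Type u} [CStarAlgebra U] [PartialOrder U] [StarOrderedRing U]

theorem stageMix {a e k : U} (t₁ : Tw e) (t₂ : Tw k) (h₁ : Cov a e) (h₂ : Cov a k) {θ : ℝ}
    (hθ : 0 < θ) (hθ' : θ ≤ 1) :
    ∃ x y : U, InR e x ∧ InR k y ∧ ‖x‖ ≤ 1 + θ ^ 2 / 32 ∧ ‖y‖ ≤ 1 + θ ^ 2 / 32 ∧
      Cov a (cut ((x + θ • y) * star (x + θ • y)) (1 + θ ^ 2 / 2)) := by
  obtain ⟨m₁, m₂, em, km, c1, c2, hcorr⟩ := good_same t₁ t₂ h₁ h₂ (κ := θ / 16) (by positivity)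
  obtain ⟨b, b0, b1, hb1, hb2, hb⟩ := c1.plat2 c2
  obtain ⟨x, hx, hxb⟩ := pistar (t₁.inR em).twin b0 hb1 (ε := θ ^ 2 / 16) (by positivity)
  obtain ⟨y, hy, hyb⟩ := pistar (t₂.inR km).twin b0 hb2 (ε := θ ^ 2 / 16) (by positivity)
  have nb : ‖b‖ ≤ 1 := (CStarAlgebra.norm_le_one_iff_of_nonneg _ b0).2 b1
  have hθ2 : θ ^ 2 ≤ 1 := by nlinarith
  have nrm : ∀ z : U, ‖star z * z - b‖ < θ ^ 2 / 16 → ‖z‖ ≤ 1 + θ ^ 2 / 32 := by
    intro z hz
    have h1 := norm_sub_norm_le (star z * z) b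
    rw [CStarRing.norm_star_mul_self] at h1
    refine le_of_pow_le_pow_left₀ two_ne_zero (by positivity) ?_
    nlinarith [sq_nonneg (θ ^ 2)]
  have nx := nrm x hxb
  have ny := nrm y hyb
  refine ⟨x, y, em.trans hx, km.trans hy, nx, ny, fun φ hφ => hb φ ?_⟩
  rw [map_cut_eq_zero_iff φ (mul_star_self_nonneg _) (by positivity), φ.norm_mul_star] at hφ
  have hxy : ‖star x * y‖ ≤ θ / 14 := by
    have := hcorr x y hx hy
    rw [mul_one] at this
    refine this.trans ?_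
    calc θ / 16 * ‖x‖ * ‖y‖ ≤ θ / 16 * (33 / 32) * (33 / 32) := by
          gcongr <;> linarith
      _ ≤ θ / 14 := by linarith
  have hyx : ‖star y * x‖ ≤ θ / 14 := by rwa [← norm_star, star_mul, star_star]
  have e1 : star (x + θ • y) * (x + θ • y) - (1 + θ ^ 2) • b =
      (star x * x - b) + θ ^ 2 • (star y * y - b) + θ • (star x * y) + θ • (star y * x) := by
    simp only [star_add, star_smul, star_trivial, add_mul, mul_add, mul_smul_comm, smul_mul_assoc,
      smul_smul, add_smul, one_smul, smul_sub, smul_add, sq]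
    abel
  have h3 : ‖star (x + θ • y) * (x + θ • y) - (1 + θ ^ 2) • b‖ < θ ^ 2 / 2 := by
    rw [e1]
    have a1 : ‖θ ^ 2 • (star y * y - b)‖ ≤ θ ^ 2 / 16 := by
      rw [norm_smul, Real.norm_of_nonneg (by positivity)]
      calc θ ^ 2 * ‖star y * y - b‖ ≤ 1 * (θ ^ 2 / 16) :=
            mul_le_mul hθ2 hyb.le (norm_nonneg _) zero_le_one
        _ = _ := one_mul _
    have a2 : ‖θ • (star x * y)‖ ≤ θ * (θ / 14) := by
      rw [norm_smul, Real.norm_of_nonneg hθ.le]; gcongr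
    have a3 : ‖θ • (star y * x)‖ ≤ θ * (θ / 14) := by
      rw [norm_smul, Real.norm_of_nonneg hθ.le]; gcongr
    have a4 := norm_add_le (star x * x - b + θ ^ 2 • (star y * y - b) + θ • (star x * y))
      (θ • (star y * x))
    have a5 := norm_add_le (star x * x - b + θ ^ 2 • (star y * y - b)) (θ • (star x * y))
    have a6 := norm_add_le (star x * x - b) (θ ^ 2 • (star y * y - b))
    nlinarith [sq_pos_of_pos hθ]
  have h4 := (φ.sq_near h3).2
  rw [φ.map_rsmul, norm_smul, Real.norm_of_nonneg (by positivity)] at h4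
  by_contra hc
  push Not at hc
  nlinarith [sq_nonneg θ]

theorem defect_ineq {v w : U} (v0 : 0 ≤ v) (v1 : v ≤ 1) (w0 : 0 ≤ w) (w1 : w ≤ 1) {T l : ℝ}
    (hT : 0 ≤ T) (hl : 0 < l) (h : ‖v * w * v‖ ≤ T) :
    w ≤ (1 + l) • (1 - v * v) + ((1 + l⁻¹) * T) • (v * v) := by
  have vs : IsSelfAdjoint v := .of_nonneg v0
  have vv0 : 0 ≤ v * v := by simpa [vs.star_eq] using star_mul_self_nonneg v
  have vv1 : v * v ≤ 1 := (mul_self_le v0 v1).trans v1
  set u := 1 - v * v with hu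
  have u0 : 0 ≤ u := sub_nonneg.2 vv1
  have u1 : u ≤ 1 := sub_le_self _ vv0
  have us : IsSelfAdjoint u := .of_nonneg u0
  have vvs : IsSelfAdjoint (v * v) := .of_nonneg vv0
  have h1 : u * w * u ≤ u := by
    have := us.conjugate_le_conjugate w1
    rw [mul_one] at this
    exact this.trans (mul_self_le u0 u1)
  have h2 : v * v * w * (v * v) ≤ T • (v * v) := by
    have h3 : v * w * v ≤ T • (1 : U) := by
      have := (CStarAlgebra.norm_le_iff_le_algebraMap (v * w * v) hT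
        (vs.conjugate_nonneg w0)).1 h
      rwa [Algebra.algebraMap_eq_smul_one] at this
    have := vs.conjugate_le_conjugate h3
    rw [mul_smul_comm, mul_one, smul_mul_assoc] at this
    convert this using 1
    noncomm_ring
  have h4 : 0 ≤ l⁻¹ • ((l • u - v * v) * w * (l • u - v * v)) :=
    smul_nonneg (by positivity)
      (((IsSelfAdjoint.smul (IsSelfAdjoint.all l) us).sub vvs).conjugate_nonneg w0)
  have e1 : (1 + l) • (u * w * u) + (1 + l⁻¹) • (v * v * w * (v * v)) - w =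
      l⁻¹ • ((l • u - v * v) * w * (l • u - v * v)) := by
    have e2 : w = (u + v * v) * w * (u + v * v) := by rw [hu, sub_add_cancel, one_mul, mul_one]
    have hl' : l⁻¹ * l = 1 := inv_mul_cancel₀ hl.ne'
    have hl'' : l⁻¹ * (l * l) = l := by rw [← mul_assoc, hl', one_mul]
    conv_lhs => rhs; rw [e2]
    generalize v * v = z
    simp only [mul_sub, sub_mul, add_mul, mul_add, mul_smul_comm, smul_mul_assoc, smul_sub,
      smul_smul, hl', hl'', add_smul, one_smul]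
    abel
  rw [← e1, sub_nonneg] at h4
  refine h4.trans (add_le_add (smul_le_smul_of_nonneg_left h1 (by positivity)) ?_)
  rw [← smul_smul]
  exact smul_le_smul_of_nonneg_left h2 (by positivity)

theorem gain {c a₁ a₂ k₁ k₂ : U} (t₁ : Tw k₁) (t₂ : Tw k₂) (hc : ‖c‖ ≤ 1)
    (h₁ : Cov a₁ k₁) (h₂ : Cov a₂ k₂) : Good c a₁ a₂ k₁ k₂ (1 - 1 / 10 ^ 12) := by
  obtain ⟨δ, hδ, ce⟩ := h₁.exists_cut
  have hh0 : 0 ≤ k₁ * star k₁ := mul_star_self_nonneg k₁
  have hhs : IsSelfAdjoint (k₁ * star k₁) := .of_nonneg hh0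
  set e := cut (k₁ * star k₁) δ with he
  set m := pl (k₁ * star k₁) δ with hm
  have ke : InR k₁ e := (InR.self_mul _ _).trans (inR_cut hhs hδ)
  have km : InR k₁ m := (InR.self_mul _ _).trans (inR_pl _ _)
  set v := 1 - m with hv
  have v0 : 0 ≤ v := sub_nonneg.2 (pl_le_one hhs hδ)
  have v1 : v ≤ 1 := sub_le_self _ (pl_nonneg hh0 hδ)
  have vs : IsSelfAdjoint v := .of_nonneg v0
  have ve : v * e = 0 := by rw [hv, sub_mul, one_mul, pl_mul_cut hhs hδ, sub_self]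
  have ku : InR k₁ (1 - v * v) := by
    have : 1 - v * v = m * (1 + v) := by rw [hv]; noncomm_ring
    rw [this]; exact km.mul _
  have te : Tw e := t₁.inR ke
  obtain ⟨kY, ζ, kkY, cY, ⟨r, rfl⟩, hdef, hY⟩ :=
    stageY te t₂ hc ce h₂ v0 v1 ve ke ku (s := 1 / 200000) (by norm_num) (by norm_num)
  obtain ⟨x, y, ex, ky, nx, ny, hcov⟩ :=
    stageMix te (t₁.inR kkY) ce cY (θ := 1 / 200) (by norm_num) (by norm_num)
  set σ := x + (1 / 200 : ℝ) • y with hσ
  have kσ : InR k₁ σ := (ke.trans ex).add ((kkY.trans ky).smul _)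
  have W0 : 0 ≤ σ * star σ := mul_star_self_nonneg σ
  refine comb W0 (by norm_num) (by norm_num) (kσ.mul _) hcov (fun φ hφ => ?_)
  set ρ : ℝ := 1 + (1 / 200 : ℝ) ^ 2 / 2 with hρ
  have ρ0 : 0 < ρ := by norm_num [hρ]
  set w := pl (σ * star σ) ρ with hw
  have w0 : 0 ≤ w := pl_nonneg W0 ρ0
  have w1 : w ≤ 1 := pl_le_one (.of_nonneg W0) ρ0
  have wW : w ≤ ρ⁻¹ • (σ * star σ) := pl_le_smul W0 ρ0
  have ny' : ‖y‖ ≤ 101 / 100 := ny.trans (by norm_num)
  have vσ : ‖v * σ‖ ≤ 1 / 200000 / 4 := by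
    rw [hσ, mul_add, ex.kill ve, zero_add, mul_smul_comm, norm_smul,
      Real.norm_of_nonneg (by norm_num)]
    have := hdef y ky
    linarith
  have vwv : ‖v * w * v‖ ≤ (1 / 200000 / 4) ^ 2 := by
    have h1 := vs.conjugate_le_conjugate wW
    have e1 : v * (ρ⁻¹ • (σ * star σ)) * v = ρ⁻¹ • (v * σ * star (v * σ)) := by
      rw [mul_smul_comm, smul_mul_assoc, star_mul, vs.star_eq]
      simp only [mul_assoc]
    rw [e1] at h1
    refine (CStarAlgebra.norm_le_norm_of_nonneg_of_le (vs.conjugate_nonneg w0) h1).trans ?_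
    rw [norm_smul, CStarRing.norm_self_mul_star, Real.norm_of_nonneg (by positivity)]
    have h2 : ρ⁻¹ ≤ 1 := inv_le_one_of_one_le₀ (by norm_num [hρ])
    calc ρ⁻¹ * (‖v * σ‖ * ‖v * σ‖) ≤ 1 * (1 / 200000 / 4 * (1 / 200000 / 4)) := by gcongr
      _ = _ := by ring
  have hin := defect_ineq v0 v1 w0 w1 (l := (1 / 200000) ^ 2 / 4) (by positivity) (by positivity)
    vwv
  set l : ℝ := (1 / 200000) ^ 2 / 4 with hl
  set μ : ℝ := (1 + l⁻¹) * (1 / 200000 / 4) ^ 2 with hμ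
  have μv : μ = 1 / 4 + l / 4 := by rw [hμ, hl]; norm_num
  have tight : (1 - (1 / 200000 : ℝ) ^ 2) • φ.π (star k₂ * k₂) ≤
      φ.π (star (c * k₂) * (1 - v * v) * (c * k₂)) := by
    have h1 : w ≤ (1 + l - μ) • (1 - v * v) + μ • (1 : U) := by
      refine hin.trans (le_of_eq ?_)
      simp only [sub_smul, smul_sub]
      abel
    have h2 := φ.mono (star_left_conjugate_le_conjugate h1 (c * k₂))
    have h3 : star (c * k₂) * (c * k₂) ≤ star k₂ * k₂ := by
      have := star_left_conjugate_le_conjugate (star_mul_self_le_one hc) k₂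
      simp only [star_mul, mul_assoc, mul_one] at this ⊢
      exact this
    rw [mul_add, add_mul, mul_smul_comm, smul_mul_assoc, mul_smul_comm, smul_mul_assoc, mul_one,
      map_add, φ.map_rsmul, φ.map_rsmul] at h2
    have μ0 : 0 ≤ μ := by rw [μv, hl]; norm_num
    have h4 := (hφ.trans h2).trans
      (add_le_add_right (smul_le_smul_of_nonneg_left (φ.mono h3) μ0) _)
    rw [← sub_le_iff_le_add, ← sub_smul] at h4
    have p0 : 0 < 1 + l - μ := by rw [μv, hl]; norm_num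
    have h5 := smul_le_smul_of_nonneg_left h4 (inv_pos.2 p0).le
    rw [smul_smul, smul_smul, inv_mul_cancel₀ p0.ne', one_smul] at h5
    refine le_trans (smul_le_smul_of_nonneg_right ?_ (φ.nonneg (star_mul_self_nonneg k₂))) h5
    rw [μv, hl]; norm_num
  obtain ⟨g1, g2⟩ := hY φ tight
  apply g1
  have h1 := φ.conj_ineq hφ r
  set g := c * k₂ * r with hg
  have cg : c * (k₂ * r) = g := by rw [hg, mul_assoc]
  have h2 : φ.π (star g * w * g) ≤ ρ⁻¹ • (star (φ.π (star σ * g)) * φ.π (star σ * g)) := by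
    refine (φ.mono (star_left_conjugate_le_conjugate wW g)).trans (le_of_eq ?_)
    rw [mul_smul_comm, smul_mul_assoc, φ.map_rsmul]
    simp only [map_mul φ.π _ g, map_mul φ.π (star g), map_mul φ.π σ, map_star, star_mul, star_star,
      mul_assoc]
  have h3 := smul_sq_le (by positivity) (h1.trans h2)
  rw [norm_smul, CStarRing.norm_star_mul_self, Real.norm_of_nonneg (by positivity)] at h3
  have gz : ‖φ.π g‖ ≤ ‖φ.π (k₂ * r)‖ := by
    rw [← cg, map_mul]
    refine (norm_mul_le _ _).trans ?_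
    calc _ ≤ 1 * ‖φ.π (k₂ * r)‖ :=
          mul_le_mul_of_nonneg_right ((φ.norm_le _).trans hc) (norm_nonneg _)
      _ = _ := one_mul _
  have z0 := norm_nonneg (φ.π (k₂ * r))
  have h4 : ‖φ.π (star σ * g)‖ ≤ (1 + 21 / 10 ^ 7) * ‖φ.π (k₂ * r)‖ := by
    have e1 : φ.π (star σ * g) = star (φ.π x) * φ.π g + (1 / 200 : ℝ) • φ.π (star y * g) := by
      rw [hσ, star_add, star_smul, star_trivial (1 / 200 : ℝ), add_mul, smul_mul_assoc, map_add, φ.map_rsmul,
        map_mul, map_star]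
    have a1 : ‖star (φ.π x) * φ.π g‖ ≤ (1 + (1 / 200) ^ 2 / 32) * ‖φ.π (k₂ * r)‖ := by
      refine (norm_mul_le _ _).trans ?_
      rw [norm_star]
      exact mul_le_mul ((φ.norm_le _).trans nx) gz (norm_nonneg _) (by positivity)
    have a2 := g2 y ky
    rw [cg] at a2
    have a3 : 48 * (1 / 200000) * ‖y‖ * ‖φ.π (k₂ * r)‖ ≤
        48 * (1 / 200000) * (101 / 100) * ‖φ.π (k₂ * r)‖ := by gcongr
    rw [e1]
    refine (norm_add_le _ _).trans ?_
    rw [norm_smul, Real.norm_of_nonneg (by norm_num)]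
    linarith
  have h5 := mul_le_mul h4 h4 (norm_nonneg _) (by positivity)
  have h6 : ρ⁻¹ ≤ 1 - 1 / 10 ^ 5 := by rw [hρ]; norm_num
  have h7 : ρ⁻¹ * (‖φ.π (star σ * g)‖ * ‖φ.π (star σ * g)‖) ≤
      (1 - 1 / 10 ^ 5) * ((1 + 21 / 10 ^ 7) * ‖φ.π (k₂ * r)‖ *
        ((1 + 21 / 10 ^ 7) * ‖φ.π (k₂ * r)‖)) :=
    mul_le_mul h6 h5 (by positivity) (by norm_num)
  have h8 : ‖φ.π (k₂ * r)‖ ^ 2 ≤ 0 := by nlinarith
  exact norm_eq_zero.1 (by nlinarith)

end Vale.Agent.P133
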