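import Vale.Agent.P133.Same

/-! The module of small defect which is almost orthogonal to the second module. -/

namespace Vale.Agent.P133

universe u

variable {U : Type u} [CStarAlgebra U] [PartialOrder U] [StarOrderedRing U]

theorem star_mul_self_le_one {c : U} (hc : ‖c‖ ≤ 1) : star c * c ≤ 1 := by
  rw [← CStarAlgebra.norm_le_one_iff_of_nonneg _ (star_mul_self_nonneg c),
    CStarRing.norm_star_mul_self]
  nlinarith [norm_nonneg c]

theorem tight_def (φ : Rep U) {c k v : U} {s : ℝ} (hc : ‖c‖ ≤ 1) (vs : IsSelfAdjoint v)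
    (hs : 0 < s) (hs' : s ≤ 1 / 2)
    (h : (1 - s ^ 2) • φ.π (star k * k) ≤ φ.π (star (c * k) * (1 - v * v) * (c * k))) (r : U) :
    ‖φ.π (v * (c * k * r))‖ ≤ 2 * s * ‖φ.π (c * k * r)‖ ∧
      ‖φ.π (k * r)‖ ≤ 2 * ‖φ.π (c * k * r)‖ := by
  have h1 := φ.conj_ineq h r
  set x := c * k * r with hx
  have e1 : φ.π (star x * (1 - v * v) * x) =
      star (φ.π x) * φ.π x - star (φ.π (v * x)) * φ.π (v * x) := by
    simp only [mul_sub, sub_mul, mul_one, map_sub, map_mul φ.π _ x, map_star, star_mul,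
      (vs.map φ.π).star_eq, map_mul φ.π (star x), map_mul φ.π v, mul_assoc]
  rw [e1] at h1
  have h2 : star (φ.π x) * φ.π x ≤ star (φ.π (k * r)) * φ.π (k * r) := by
    have := φ.mono (star_left_conjugate_le_conjugate (star_mul_self_le_one hc) (k * r))
    simp only [hx, map_mul, map_star, star_mul, mul_assoc, mul_one] at this ⊢
    exact this
  have h3 : star (φ.π (v * x)) * φ.π (v * x) ≤ s ^ 2 • (star (φ.π (k * r)) * φ.π (k * r)) := by
    rw [sub_smul, one_smul] at h1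
    have := sub_le_sub_right h2 (star (φ.π (v * x)) * φ.π (v * x))
    have h4 := h1.trans this
    exact (sub_le_sub_iff_left _).1 h4
  have h4 := norm_sq_le_of_le h3
  rw [norm_smul, CStarRing.norm_star_mul_self, Real.norm_of_nonneg (by positivity)] at h4
  have h5 := smul_sq_le (by nlinarith) (h1.trans (sub_le_self _ (star_mul_self_nonneg _)))
  rw [CStarRing.norm_star_mul_self] at h5
  have a0 := norm_nonneg (φ.π (k * r))
  have b0 := norm_nonneg (φ.π x)
  have h6 : ‖φ.π (k * r)‖ ≤ 2 * ‖φ.π x‖ := by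
    refine le_of_pow_le_pow_left₀ two_ne_zero (by positivity) ?_
    have : 1 / 4 * ‖φ.π (k * r)‖ ^ 2 ≤ (1 - s ^ 2) * ‖φ.π (k * r)‖ ^ 2 :=
      mul_le_mul_of_nonneg_right (by nlinarith) (by positivity)
    nlinarith
  refine ⟨le_of_pow_le_pow_left₀ two_ne_zero (by positivity) (h4.trans ?_), h6⟩
  have : ‖φ.π (k * r)‖ * ‖φ.π (k * r)‖ ≤ (2 * ‖φ.π x‖) * (2 * ‖φ.π x‖) :=
    mul_le_mul h6 h6 a0 (by positivity)
  calc s ^ 2 * (‖φ.π (k * r)‖ * ‖φ.π (k * r)‖) ≤ s ^ 2 * ((2 * ‖φ.π x‖) * (2 * ‖φ.π x‖)) :=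
        mul_le_mul_of_nonneg_left this (by positivity)
    _ = _ := by ring

/-- truncation: make `‖A χ‖` small while `χ` is invisible where `A` is small -/
theorem exists_trunc (A : U) {t : ℝ} (ht : 0 < t) :
    ∃ χ : U, ‖A * χ‖ ≤ t ∧ ∀ φ : Rep U, ‖φ.π A‖ ≤ t → φ.π χ = 1 := by
  have D0 : 0 ≤ star A * A := star_mul_self_nonneg A
  have hρ : 0 < t ^ 2 := by positivity
  refine ⟨t ^ 2 • psi (star A * A) (t ^ 2), ?_, fun φ hφ => ?_⟩
  · refine le_of_pow_le_pow_left₀ two_ne_zero ht.le ?_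
    rw [sq ‖_‖, ← CStarRing.norm_star_mul_self]
    have e : star (A * t ^ 2 • psi (star A * A) (t ^ 2)) * (A * t ^ 2 • psi (star A * A) (t ^ 2)) =
        (t ^ 2 * t ^ 2) • (psi (star A * A) (t ^ 2) * pl (star A * A) (t ^ 2)) := by
      simp only [pl, star_mul, star_smul, star_trivial, (psi_sa _ _).star_eq, mul_smul_comm,
        smul_mul_assoc, smul_smul, mul_assoc]
    rw [e, norm_smul, Real.norm_of_nonneg (by positivity)]
    have h1 : ‖psi (star A * A) (t ^ 2) * pl (star A * A) (t ^ 2)‖ ≤ (t ^ 2)⁻¹ * 1 :=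
      (norm_mul_le _ _).trans (mul_le_mul (norm_psi_le _ hρ) (norm_pl_le D0 hρ) (norm_nonneg _)
        (by positivity))
    calc _ ≤ t ^ 2 * t ^ 2 * ((t ^ 2)⁻¹ * 1) := mul_le_mul_of_nonneg_left h1 (by positivity)
      _ = t ^ 2 := by field_simp
  · rw [φ.map_rsmul, map_psi φ (.of_nonneg D0) hρ, psi_of_norm_le (.of_nonneg (φ.nonneg D0)),
      smul_smul, mul_inv_cancel₀ hρ.ne', one_smul]
    rw [φ.norm_star_mul]
    exact pow_le_pow_left₀ (norm_nonneg _) hφ 2

theorem mul_star_le_cut {W y : U} (hW : 0 ≤ W) {ρ : ℝ} (hρ : 0 < ρ) (hy : InR (cut W ρ) y) :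
    y * star y ≤ (‖y‖ ^ 2 * ρ⁻¹) • W := by
  have h1 := mul_star_le_of_fix (pl_nonneg hW hρ) (pl_le_one (.of_nonneg hW) hρ)
    (hy.fix (pl_mul_cut (.of_nonneg hW) hρ))
  refine h1.trans ?_
  rw [← smul_smul]
  exact smul_le_smul_of_nonneg_left (pl_le_smul hW hρ) (by positivity)

theorem stageY {c a₁ a₂ k₁ k e₁ v : U} {s : ℝ} (t₁ : Tw e₁) (t₂ : Tw k) (hc : ‖c‖ ≤ 1)
    (h₁ : Cov a₁ e₁) (h₂ : Cov a₂ k) (v0 : 0 ≤ v) (v1 : v ≤ 1) (ve : v * e₁ = 0)
    (ke : InR k₁ e₁) (ku : InR k₁ (1 - v * v)) (hs : 0 < s) (hs' : s ≤ 1 / 40) :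
    ∃ kY ζ : U, InR k₁ kY ∧ Cov a₁ kY ∧ InR k ζ ∧
      (∀ y, InR kY y → ‖v * y‖ ≤ 40 * s * ‖y‖) ∧
      ∀ φ : Rep U,
        (1 - s ^ 2) • φ.π (star k * k) ≤ φ.π (star (c * k) * (1 - v * v) * (c * k)) →
        (φ.π ζ = 0 → ‖φ.π a₂‖ < 1) ∧
          ∀ y, InR kY y → ‖φ.π (star y * (c * ζ))‖ ≤ 48 * s * ‖y‖ * ‖φ.π ζ‖ := by
  have vs : IsSelfAdjoint v := .of_nonneg v0
  have nv : ‖v‖ ≤ 1 := (CStarAlgebra.norm_le_one_iff_of_nonneg _ v0).2 v1
  have vv0 : 0 ≤ v * v := by simpa [vs.star_eq] using star_mul_self_nonneg v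
  have vv1 : v * v ≤ 1 := (mul_self_le v0 v1).trans v1
  have nu : ‖1 - v * v‖ ≤ 1 := norm_one_sub_le vv0 vv1
  obtain ⟨δ, hδ, hd⟩ := h₂.dom
  obtain ⟨e, ee, ne, he⟩ := h₁.nrm
  obtain ⟨w, g, w0, ⟨r, hg⟩, n1, n2, n3, -, n5⟩ :=
    nest (t₂.left c) ne (δ := δ / 2) (τ := s) (by positivity) hs
  set M : U := (1 - s ^ 2) • (star k * k) - star (c * k) * (1 - v * v) * (c * k) with hM
  have hMs : IsSelfAdjoint M :=
    IsSelfAdjoint.sub (IsSelfAdjoint.smul (IsSelfAdjoint.all _) (.star_mul_self k))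
      (.of_nonneg (star_left_conjugate_nonneg (sub_nonneg.2 vv1) _))
  have tight : ∀ φ : Rep U, φ.π (cut M 0) = 0 ↔
      (1 - s ^ 2) • φ.π (star k * k) ≤ φ.π (star (c * k) * (1 - v * v) * (c * k)) := by
    intro φ
    rw [map_cut_zero_eq_zero_iff φ hMs, hM, map_sub, φ.map_rsmul, sub_nonpos]
  set S := CFC.sqrt w with hS
  have Ss : IsSelfAdjoint S := .of_nonneg (CFC.sqrt_nonneg w)
  have SS : S * S = w := CFC.sqrt_mul_sqrt_self w w0
  have vS : ∀ φ : Rep U, φ.π (cut M 0) = 0 → ‖φ.π (v * S)‖ ≤ 5 * s := by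
    intro φ hφ
    have h1 := n5 v φ (2 * s) vs (ee.kill ve) (by positivity) (by
      rintro x ⟨r, rfl⟩
      exact (tight_def φ hc vs hs (by linarith) ((tight φ).1 hφ) r).1)
    have e1 : v * w * v = v * S * star (v * S) := by
      rw [star_mul, Ss.star_eq, vs.star_eq, ← SS]; noncomm_ring
    rw [e1, φ.norm_mul_star] at h1
    refine le_of_pow_le_pow_left₀ two_ne_zero (by positivity) (h1.trans (le_of_eq ?_))
    ring
  set R := (1 - v * v) * S with hR
  obtain ⟨χ, hχ1, hχ2⟩ := exists_trunc (v * R) (t := 5 * s) (by positivity)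
  have RR : ∀ φ : Rep U, φ.π (cut M 0) = 0 → φ.π (R * χ) = φ.π R := by
    intro φ hφ
    rw [map_mul, hχ2 φ, mul_one]
    have e1 : v * R = (1 - v * v) * (v * S) := by rw [hR]; noncomm_ring
    rw [e1, map_mul]
    refine (norm_mul_le _ _).trans ?_
    calc _ ≤ 1 * (5 * s) :=
          mul_le_mul ((φ.norm_le _).trans nu) (vS φ hφ) (norm_nonneg _) zero_le_one
      _ = _ := one_mul _
  obtain ⟨l, el, hl, hcov⟩ := glue_cut (R := R * χ) (d := cut M 0) t₁.twin h₁ (ρ := 1 / 64)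
    (by norm_num) (by norm_num) (by
      intro φ hφ hn
      rw [RR φ hφ] at hn
      apply he φ (n1 φ _)
      have h1 : ‖φ.π R‖ ≤ 1 / 8 := le_of_pow_le_pow_left₀ two_ne_zero (by norm_num)
        (hn.trans (by norm_num))
      have e1 : φ.π S = φ.π R + φ.π v * φ.π (v * S) := by
        rw [← map_mul, ← map_add, hR]; congr 1; noncomm_ring
      have h2 : ‖φ.π v * φ.π (v * S)‖ ≤ 1 * (5 * s) := (norm_mul_le _ _).trans
        (mul_le_mul ((φ.norm_le _).trans nv) (vS φ hφ) (norm_nonneg _) zero_le_one)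
      have h3 : ‖φ.π S‖ ≤ 1 / 4 := by
        rw [e1]; exact (norm_add_le _ _).trans (by linarith)
      have e2 : w = star S * S := by rw [Ss.star_eq, SS]
      rw [e2, φ.norm_star_mul]
      nlinarith [norm_nonneg (φ.π S)])
  set W := R * χ * star (R * χ) + l * star l with hW
  have W0 : 0 ≤ W := add_nonneg (mul_star_self_nonneg _) (mul_star_self_nonneg _)
  have kW : InR k₁ W := (((ku.mul S).mul χ).mul _).add ((ke.trans el).mul _)
  have cg : c * (k * r) = g := by rw [hg, mul_assoc]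
  refine ⟨cut W (1 / 64), k * r, kW.trans (inR_cut (.of_nonneg W0) (by norm_num)), hcov,
    InR.self_mul _ _, fun y hy => ?_, fun φ hφ => ⟨fun h0 => ?_, fun y hy => ?_⟩⟩
  · have h1 := vs.conjugate_le_conjugate (mul_star_le_cut W0 (by norm_num) hy)
    have e1 : v * (y * star y) * v = star (star (v * y)) * star (v * y) := by
      rw [star_star, star_mul, vs.star_eq]; noncomm_ring
    have e2 : v * W * v = (v * R * χ) * star (v * R * χ) := by
      have vl : v * l = 0 := el.kill ve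
      calc v * W * v = v * R * χ * (star χ * star R * v) + (v * l) * star l * v := by
            rw [hW, star_mul]; noncomm_ring
        _ = _ := by rw [vl, star_mul (v * R), star_mul v R, vs.star_eq]; noncomm_ring
    rw [e1, mul_smul_comm, smul_mul_assoc, e2] at h1
    have h2 := norm_sq_le_of_le h1
    rw [norm_star, norm_smul, CStarRing.norm_self_mul_star,
      Real.norm_of_nonneg (by positivity)] at h2
    refine le_of_pow_le_pow_left₀ two_ne_zero (by positivity) (h2.trans ?_)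
    have h3 : ‖v * R * χ‖ * ‖v * R * χ‖ ≤ (5 * s) * (5 * s) :=
      mul_le_mul hχ1 hχ1 (norm_nonneg _) (by positivity)
    calc _ ≤ ‖y‖ ^ 2 * (1 / 64 : ℝ)⁻¹ * ((5 * s) * (5 * s)) :=
          mul_le_mul_of_nonneg_left h3 (by positivity)
      _ = _ := by ring
  · apply hd φ
    have h1 := n2 φ (by rw [← cg, map_mul, h0, mul_zero])
    have h2 := (tight_def φ hc vs hs (by linarith) hφ 1).2
    rw [mul_one, mul_one] at h2
    linarith
  · have hφ' := (tight φ).2 hφ
    rw [cg]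
    have gz : ‖φ.π g‖ ≤ ‖φ.π (k * r)‖ := by
      rw [← cg, map_mul]
      refine (norm_mul_le _ _).trans ?_
      calc _ ≤ 1 * ‖φ.π (k * r)‖ :=
            mul_le_mul_of_nonneg_right ((φ.norm_le _).trans hc) (norm_nonneg _)
        _ = _ := one_mul _
    have Sg : ‖φ.π (S * g)‖ ≤ s * ‖φ.π g‖ := by
      have h1 := n3 φ
      have e1 : star g * w * g = star (S * g) * (S * g) := by
        rw [star_mul, Ss.star_eq, ← SS]; noncomm_ring
      rw [e1, φ.norm_star_mul, ← mul_pow] at h1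
      exact le_of_pow_le_pow_left₀ two_ne_zero (by positivity) h1
    have Rg : ‖star (φ.π R) * φ.π g‖ ≤ 6 * s * ‖φ.π g‖ := by
      have e1 : star (φ.π R) * φ.π g =
          φ.π (S * g) - star (φ.π (v * S)) * (φ.π v * φ.π g) := by
        rw [← map_star, ← map_star, ← map_mul, ← map_mul, ← map_mul, ← map_sub, hR]
        congr 1
        simp only [star_mul, star_sub, star_one, Ss.star_eq, vs.star_eq]
        noncomm_ring
      have h2 : ‖φ.π v * φ.π g‖ ≤ 1 * ‖φ.π g‖ := (norm_mul_le _ _).trans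
        (mul_le_mul_of_nonneg_right ((φ.norm_le _).trans nv) (norm_nonneg _))
      have h3 : ‖star (φ.π (v * S)) * (φ.π v * φ.π g)‖ ≤ 5 * s * (1 * ‖φ.π g‖) := by
        refine (norm_mul_le _ _).trans ?_
        rw [norm_star]
        exact mul_le_mul (vS φ hφ') h2 (norm_nonneg _) (by positivity)
      rw [e1]
      refine (norm_sub_le _ _).trans ?_
      linarith
    have h1 := φ.mono (star_left_conjugate_le_conjugate (mul_star_le_cut W0 (by norm_num) hy) g)
    have e1 : φ.π (star g * (y * star y) * g) = star (φ.π (star y * g)) * φ.π (star y * g) := by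
      simp only [map_mul, map_star, star_mul, star_star, mul_assoc]
    have e2 : φ.π (star g * W * g) = star (star (φ.π R) * φ.π g) * (star (φ.π R) * φ.π g) := by
      rw [hW, map_mul, map_mul, map_add, map_mul _ (R * χ), map_star _ (R * χ), RR φ hφ',
        map_mul _ l, hl φ hφ', zero_mul, add_zero, map_star, star_mul, star_star]
      noncomm_ring
    rw [e1, mul_smul_comm, smul_mul_assoc, φ.map_rsmul, e2] at h1
    have h2 := norm_sq_le_of_le h1
    rw [norm_smul, CStarRing.norm_star_mul_self, Real.norm_of_nonneg (by positivity)] at h2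
    refine le_of_pow_le_pow_left₀ two_ne_zero (by positivity) (h2.trans ?_)
    have Rg' : ‖star (φ.π R) * φ.π g‖ ≤ 6 * s * ‖φ.π (k * r)‖ :=
      Rg.trans (mul_le_mul_of_nonneg_left gz (by positivity))
    have h3 := mul_le_mul Rg' Rg' (norm_nonneg _) (by positivity)
    calc _ ≤ ‖y‖ ^ 2 * (1 / 64 : ℝ)⁻¹ * ((6 * s * ‖φ.π (k * r)‖) * (6 * s * ‖φ.π (k * r)‖)) :=
          mul_le_mul_of_nonneg_left h3 (by positivity)
      _ = _ := by ring

end Vale.Agent.P133
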