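import Vale.Agent.P133.Quot

/-! Comparison: a positive element of the closed ideal generated by `k` is approximately `x* x`
with `x ∈ k U`, when `k` has twins.

Plan. Let `S b := ∀ ε > 0, ∃ r, ‖star (k * r) * (k * r) - b‖ < ε`.
* `S` is closed under norm limits, and `S b → S (star s * b * s)` (use `r * s`).
* `S b₁ → S b₂ → S (b₁ + b₂)`: take `r₁, r₂`, then twins `s, t` of `k` with error
  `η ≪ ε / (‖r₁‖ + ‖r₂‖ + 1)^2`, and `r = s r₁ + t r₂`.
* hereditary: `0 ≤ p ≤ t`, `S t → S p`. With `ψ = cfc (fun x => (√(max x η))⁻¹) t` (or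
  `(t + η)^(-1/2)`) and `s = ψ * CFC.sqrt p`: `star s * t * s = √p * pl t η * √p`, and
  `p - star s * t * s = √p (1 - pl t η) √p` has norm `= ‖n p n‖ ≤ ‖n t n‖ ≤ η` where
  `n = √(1 - pl t η)` (any route is fine; e.g. avoid square roots: `s = psi t η * √t`-type
  choices, or `‖√p (1 - pl t η)‖ ^ 2 = ‖(1-pl) p (1-pl)‖ ≤ ‖(1-pl) t (1-pl)‖ ≤ η`, so
  `p ≈ pl * p * pl = t ψ p ψ t`, with `ψ p ψ ≤ ...`; the first route is the standard one).
* `T = {m | S (star m * m)}` is a two-sided ideal (`TwoSidedIdeal.mk'`):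
  `(m+n)*(m+n) ≤ 2 m*m + 2 n*n`, `(x m)*(x m) ≤ ‖x‖^2 m*m`, right multiples by conjugation;
  `k ∈ T` (`r = 1`); `T` is norm closed.
* `exists_quot T` gives `q` with `q.π k = 0`, so `q.π b = 0`, so `q.π (√b) = 0`
  (`‖q.π √b‖^2 = ‖q.π b‖`), so `√b` is a norm limit of elements of `T`, so `√b ∈ T`, i.e. `S b`. -/

namespace Vale.Agent.P133

universe u

variable {U : Type u} [CStarAlgebra U] [PartialOrder U] [StarOrderedRing U]

/-- `b` is approximately of the form `x* x` with `x ∈ k U` -/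
def PS (k b : U) : Prop := ∀ ε : ℝ, 0 < ε → ∃ r : U, ‖star (k * r) * (k * r) - b‖ < ε

omit [PartialOrder U] [StarOrderedRing U] in
theorem PS.lim {k b : U} (h : ∀ ε : ℝ, 0 < ε → ∃ b', PS k b' ∧ ‖b' - b‖ < ε) : PS k b := by
  intro ε hε
  obtain ⟨b', h1, h2⟩ := h (ε / 2) (by positivity)
  obtain ⟨r, h3⟩ := h1 (ε / 2) (by positivity)
  refine ⟨r, ?_⟩
  have := norm_sub_le_norm_sub_add_norm_sub (star (k * r) * (k * r)) b' b
  linarith

omit [PartialOrder U] [StarOrderedRing U] in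
theorem ps_norm3 (a x b : U) : ‖star a * x * b‖ ≤ ‖a‖ * ‖x‖ * ‖b‖ := by
  refine (norm_mul_le _ _).trans ?_
  gcongr
  exact (norm_mul_le _ _).trans (by rw [norm_star])

omit [PartialOrder U] [StarOrderedRing U] in
theorem PS.conj {k b : U} (h : PS k b) (s : U) : PS k (star s * b * s) := by
  intro ε hε
  obtain ⟨r, h1⟩ := h (ε / (‖s‖ ^ 2 + 1)) (by positivity)
  refine ⟨r * s, ?_⟩
  have e : star (k * (r * s)) * (k * (r * s)) - star s * b * s =
      star s * (star (k * r) * (k * r) - b) * s := by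
    simp only [star_mul]
    noncomm_ring
  rw [e]
  refine (ps_norm3 _ _ _).trans_lt ?_
  rw [lt_div_iff₀ (by positivity)] at h1
  nlinarith [norm_nonneg (star (k * r) * (k * r) - b)]

omit [PartialOrder U] [StarOrderedRing U] in
theorem PS.add {k b₁ b₂ : U} (hk : Twin k) (h₁ : PS k b₁) (h₂ : PS k b₂) : PS k (b₁ + b₂) := by
  intro ε hε
  obtain ⟨r₁, a₁⟩ := h₁ (ε / 3) (by positivity)
  obtain ⟨r₂, a₂⟩ := h₂ (ε / 3) (by positivity)
  obtain ⟨s, t, c₁, c₂, c₃⟩ := hk (ε / 3 / ((‖r₁‖ + ‖r₂‖) ^ 2 + 1)) (by positivity)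
  refine ⟨s * r₁ + t * r₂, ?_⟩
  have e : star (k * (s * r₁ + t * r₂)) * (k * (s * r₁ + t * r₂)) - (b₁ + b₂) =
      (star (k * r₁) * (k * r₁) - b₁) + (star (k * r₂) * (k * r₂) - b₂) +
      (star r₁ * (star (k * s) * (k * s) - star k * k) * r₁ +
        star r₂ * (star (k * t) * (k * t) - star k * k) * r₂ +
        star r₁ * (star (k * s) * (k * t)) * r₂ + star r₂ * star (star (k * s) * (k * t)) * r₁) := by
    simp only [star_mul, star_add, star_star, mul_add]
    noncomm_ring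
  rw [e]
  set η := ε / 3 / ((‖r₁‖ + ‖r₂‖) ^ 2 + 1) with hη
  have hη' : η * ((‖r₁‖ + ‖r₂‖) ^ 2 + 1) = ε / 3 := by
    rw [hη]
    field_simp
  have hη0 : 0 < η := by positivity
  have d : ∀ a x b : U, ‖x‖ < η → ‖star a * x * b‖ ≤ ‖a‖ * η * ‖b‖ := fun a x b hx =>
    (ps_norm3 a x b).trans (by gcongr)
  have d₁ := d r₁ _ r₁ c₁
  have d₂ := d r₂ _ r₂ c₂
  have d₃ := d r₁ _ r₂ c₃
  have d₄ := d r₂ _ r₁ (by rwa [← norm_star] at c₃)
  refine (norm_add₃_le.trans (add_le_add le_rfl (norm_add₄_le.trans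
    (add_le_add (add_le_add (add_le_add d₁ d₂) d₃) d₄)))).trans_lt ?_
  nlinarith

theorem PS.her {k p t : U} (h0 : 0 ≤ p) (h1 : p ≤ t) (h : PS k t) : PS k p := by
  have ht : 0 ≤ t := h0.trans h1
  have hs : IsSelfAdjoint t := .of_nonneg ht
  refine PS.lim fun ε hε => ?_
  have hη : 0 < ε / 2 := by positivity
  set η := ε / 2
  have hm : ∀ x : ℝ, 0 < max x η := fun x => lt_max_of_lt_right hη
  have c1 : Continuous fun x : ℝ => √((max x η)⁻¹) := (cont_psi hη).sqrt
  have c2 : Continuous fun x : ℝ => √(1 - x * (max x η)⁻¹) :=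
    (continuous_const.sub (cont_pl hη)).sqrt
  set ψ := cfc (fun x : ℝ => √((max x η)⁻¹)) t with hψ
  set n := cfc (fun x : ℝ => √(1 - x * (max x η)⁻¹)) t with hn
  have sψ : IsSelfAdjoint ψ := cfc_predicate _ _
  have sn : IsSelfAdjoint n := cfc_predicate _ _
  have sp : IsSelfAdjoint (CFC.sqrt p) := .of_nonneg (CFC.sqrt_nonneg p)
  have pp : CFC.sqrt p * CFC.sqrt p = p := CFC.sqrt_mul_sqrt_self p
  have tri : ∀ f : ℝ → ℝ, Continuous f → cfc f t * t * cfc f t = cfc (fun x => f x * x * f x) t := by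
    intro f hf
    rw [cfc_mul _ _ t (by fun_prop) (by fun_prop), cfc_mul _ _ t (by fun_prop) (by fun_prop),
      cfc_id' ℝ t]
  have hle : ∀ x : ℝ, 0 ≤ 1 - x * (max x η)⁻¹ := fun x => by
    rw [← div_eq_mul_inv, sub_nonneg, div_le_one (hm x)]
    exact le_max_left _ _
  have e1 : ψ * t * ψ + n * n = 1 := by
    rw [tri _ c1, hn, ← cfc_mul _ _ t c2.continuousOn c2.continuousOn,
      ← cfc_add t _ _ ((c1.fun_mul continuous_id').fun_mul c1).continuousOn
        (c2.fun_mul c2).continuousOn,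
      ← cfc_const_one ℝ t]
    refine cfc_congr fun x _ => ?_
    have a := Real.mul_self_sqrt (inv_pos.2 (hm x)).le
    have b := Real.mul_self_sqrt (hle x)
    linear_combination x * a + b
  have e2 : ‖n * t * n‖ ≤ η := by
    rw [tri _ c2]
    refine norm_cfc_le hη.le fun x hx => ?_
    have hx0 := spectrum_nonneg_of_nonneg ht hx
    rw [mul_right_comm, Real.mul_self_sqrt (hle x), Real.norm_of_nonneg (mul_nonneg (hle x) hx0)]
    rcases le_total x η with h2 | h2
    · have : 0 ≤ x * (max x η)⁻¹ := mul_nonneg hx0 (inv_pos.2 (hm x)).le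
      nlinarith
    · rw [max_eq_left h2, mul_inv_cancel₀ (hη.trans_le h2).ne']
      linarith
  refine ⟨_, h.conj (ψ * CFC.sqrt p), ?_⟩
  have e3 : star (ψ * CFC.sqrt p) * t * (ψ * CFC.sqrt p) - p =
      -(star (n * CFC.sqrt p) * (n * CFC.sqrt p)) := by
    rw [star_mul, star_mul, sψ.star_eq, sn.star_eq, sp.star_eq]
    have : CFC.sqrt p * (ψ * t * ψ + n * n) * CFC.sqrt p = p := by rw [e1, mul_one, pp]
    rw [← sub_eq_zero, ← sub_eq_zero.2 this]
    noncomm_ring
  have e4 : n * CFC.sqrt p * star (n * CFC.sqrt p) = n * p * n := by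
    rw [star_mul, sn.star_eq, sp.star_eq, mul_assoc, ← mul_assoc (CFC.sqrt p), pp, mul_assoc]
  rw [e3, norm_neg, CStarRing.norm_star_mul_self, ← CStarRing.norm_self_mul_star, e4]
  have e5 := CStarAlgebra.norm_le_norm_of_nonneg_of_le (sn.conjugate_nonneg h0)
    (sn.conjugate_le_conjugate h1)
  exact (e5.trans e2).trans_lt (half_lt_self hε)

theorem pistar {k b : U} (hk : Twin k) (hb : 0 ≤ b) (h : ∀ φ : Rep U, φ.π k = 0 → φ.π b = 0)
    {ε : ℝ} (hε : 0 < ε) : ∃ x : U, InR k x ∧ ‖star x * x - b‖ < ε := by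
  have left : ∀ x m : U, PS k (star m * m) → PS k (star (x * m) * (x * m)) := fun x m hm => by
    refine PS.her (star_mul_self_nonneg _) ?_ (hm.conj (algebraMap ℝ U ‖x‖))
    have h1 := star_left_conjugate_le_conjugate (CStarAlgebra.star_mul_le_algebraMap_norm_sq (a := x)) m
    refine le_of_eq_of_le (by rw [star_mul]; noncomm_ring) (h1.trans_eq ?_)
    simp only [Algebra.algebraMap_eq_smul_one, star_smul, star_one, star_trivial, smul_mul_assoc,
      mul_smul_comm, one_mul, mul_one, smul_smul, sq]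
  let T : TwoSidedIdeal U := TwoSidedIdeal.mk' {m | PS k (star m * m)}
    (fun ε hε => ⟨0, by simpa using hε⟩)
    (fun {m n} hm hn => by
      refine PS.her (star_mul_self_nonneg _) ?_ ((PS.add hk hm hm).add hk (PS.add hk hn hn))
      rw [← sub_nonneg]
      refine (star_mul_self_nonneg (m - n)).trans_eq ?_
      simp only [star_add, star_sub]
      noncomm_ring)
    (fun {m} hm => by simpa using hm) (fun {x m} hm => left x m hm)
    (fun {m x} hm => by
      have := PS.conj hm x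
      rwa [show star x * (star m * m) * x = star (m * x) * (m * x) by
        rw [star_mul]; noncomm_ring] at this)
  have hT : ∀ m, m ∈ T ↔ PS k (star m * m) := fun m => TwoSidedIdeal.mem_mk' _ _ _ _ _ _ m
  obtain ⟨q, -, hq, hd⟩ := exists_quot T
  have h1 := h q (hq k ((hT k).2 fun ε hε => ⟨1, by simpa using hε⟩))
  have sp : IsSelfAdjoint (CFC.sqrt b) := .of_nonneg (CFC.sqrt_nonneg b)
  have pp : star (CFC.sqrt b) * CFC.sqrt b = b := by rw [sp.star_eq, CFC.sqrt_mul_sqrt_self b]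
  have h2 : ‖q.π (CFC.sqrt b)‖ = 0 := by
    rw [← mul_self_eq_zero, ← CStarRing.norm_star_mul_self, ← map_star, ← map_mul, pp, h1, norm_zero]
  have h3 : PS k b := by
    refine PS.lim fun ε hε => ?_
    have hc : ContinuousAt (fun m : U => star m * m) (CFC.sqrt b) := by fun_prop
    obtain ⟨δ, hδ, h4⟩ := Metric.continuousAt_iff.1 hc ε hε
    obtain ⟨j, hj, h5⟩ := hd (CFC.sqrt b) δ hδ
    rw [h2, zero_add, ← dist_eq_norm, dist_comm] at h5
    have h6 := h4 h5
    rw [pp, dist_eq_norm] at h6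
    exact ⟨_, (hT j).1 hj, h6⟩
  obtain ⟨r, hr⟩ := h3 ε hε
  exact ⟨_, InR.self_mul k r, hr⟩

end Vale.Agent.P133
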