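import Vale.Agent.P133.Dom
import Vale.Agent.P133.PIstar

/-! Restoring fullness by adding an element of the ideal generated by `d`.

Plan for `glue`. `Cov a (star j * j + star d * d)` holds (if `φ.π` kills the sum of two positive
elements it kills both, e.g. by `CStarAlgebra.norm_le_norm_of_nonneg_of_le`). `Cov.plat2` gives `b`,
`0 ≤ b ≤ 1`. `exists_quot (span {j} ⊔ span {d})` (or `span {j, d}`): `q.π b = 0`, so
`‖b - (j₀ + l₀)‖ < 1/8` with `j₀ ∈ span {j}`, `l₀ ∈ span {d}` (`TwoSidedIdeal.mem_sup`).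
`pistar` gives `x ∈ e U` with `‖star x * x - b‖ < 1/8`; `l = x * l₀`. If `φ.π j = 0` and
`1 ≤ ‖φ.π a‖` then `‖φ.π b‖ = 1`, `‖φ.π (b - l₀)‖ < 1/8`, `‖φ.π (x * b)‖^2 ≥ ‖(φ.π b)^3‖ - 1/8 = 7/8`
(`‖b‖^4 = ‖b^4‖ ≤ ‖b^3‖ ‖b‖` for self-adjoint `b`), `‖x‖^2 ≤ 9/8`, so
`‖φ.π l‖ ≥ √(7/8) - √(9/8)/8 > 1/2`.
`glue_cut`: `j = cut (R * star R) ρ`, `map_cut_eq_zero_iff`; if `‖φ.π (R R* + l l*)‖ ≤ ρ` then both
`‖φ.π R‖^2 ≤ ρ` and `‖φ.π l‖^2 ≤ ρ ≤ 1/4`. -/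

namespace Vale.Agent.P133

universe u

variable {U : Type u} [CStarAlgebra U] [PartialOrder U] [StarOrderedRing U]

theorem glue_sum (φ : Rep U) {x y : U} (hx : 0 ≤ x) (hy : 0 ≤ y) :
    ‖φ.π x‖ ≤ ‖φ.π (x + y)‖ ∧ ‖φ.π y‖ ≤ ‖φ.π (x + y)‖ :=
  ⟨CStarAlgebra.norm_le_norm_of_nonneg_of_le (φ.nonneg hx) (φ.mono (le_add_of_nonneg_right hy)),
    CStarAlgebra.norm_le_norm_of_nonneg_of_le (φ.nonneg hy) (φ.mono (le_add_of_nonneg_left hx))⟩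

omit [PartialOrder U] [StarOrderedRing U] in
theorem glue_span (φ : Rep U) {k j : U} (hj : j ∈ TwoSidedIdeal.span {k}) (h : φ.π k = 0) :
    φ.π j = 0 := by
  obtain ⟨C, -, hb⟩ := span_bound hj
  have := hb φ
  rwa [h, norm_zero, mul_zero, norm_le_zero_iff] at this

theorem glue {a e j d : U} (he : Twin e) (ha : Cov a e)
    (h : ∀ φ : Rep U, φ.π j = 0 → φ.π d = 0 → ‖φ.π a‖ < 1) :
    ∃ l : U, InR e l ∧ (∀ φ : Rep U, φ.π d = 0 → φ.π l = 0) ∧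
      ∀ φ : Rep U, φ.π j = 0 → ‖φ.π l‖ ≤ 1 / 2 → ‖φ.π a‖ < 1 := by
  have h1 : Cov a (star j * j + star d * d) := fun φ hφ => by
    obtain ⟨a1, a2⟩ := glue_sum φ (star_mul_self_nonneg j) (star_mul_self_nonneg d)
    rw [hφ, norm_zero, φ.norm_star_mul] at a1 a2
    exact h φ (by simpa using a1) (by simpa using a2)
  obtain ⟨b, b0, b1, b2, b3, b4⟩ := ha.plat2 h1
  obtain ⟨q, -, hq, hd⟩ := exists_quot (TwoSidedIdeal.span {j} ⊔ TwoSidedIdeal.span {d})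
  have hj := hq j (TwoSidedIdeal.mem_sup_left (TwoSidedIdeal.subset_span rfl))
  have hd' := hq d (TwoSidedIdeal.mem_sup_right (TwoSidedIdeal.subset_span rfl))
  obtain ⟨m, hm, c1⟩ := hd b (1 / 8) (by norm_num)
  obtain ⟨j₀, hj₀, l₀, hl₀, rfl⟩ := TwoSidedIdeal.mem_sup.1 hm
  rw [b3 q (by simp [hj, hd']), norm_zero, zero_add] at c1
  obtain ⟨x, hx, c2⟩ := pistar he b0 b2 (show (0 : ℝ) < 1 / 8 by norm_num)
  refine ⟨x * l₀, hx.mul _, fun φ hφ => by rw [map_mul, glue_span φ hl₀ hφ, mul_zero],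
    fun φ hφ hl => b4 φ ?_⟩
  by_contra hc
  have n1 : ‖b‖ ≤ 1 := (CStarAlgebra.norm_le_one_iff_of_nonneg _ b0).2 b1
  have n2 : ‖φ.π b‖ = 1 := le_antisymm ((φ.norm_le b).trans n1) (not_lt.1 hc)
  have d1 : ‖φ.π b - φ.π l₀‖ < 1 / 8 := by
    refine lt_of_le_of_lt (le_of_eq ?_) ((φ.norm_le _).trans_lt c1)
    rw [map_sub, map_add, glue_span φ hj₀ hφ, zero_add]
  have d2 : ‖star (φ.π x) * φ.π x - φ.π b‖ < 1 / 8 := by
    refine lt_of_le_of_lt (le_of_eq ?_) ((φ.norm_le _).trans_lt c2)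
    rw [map_sub, map_mul, map_star]
  have sb : IsSelfAdjoint (φ.π b) := .of_nonneg (φ.nonneg b0)
  rw [map_mul] at hl
  generalize φ.π b = β at *
  generalize φ.π x = ξ at *
  generalize φ.π l₀ = μ at *
  have d3 : ‖ξ‖ * ‖ξ‖ ≤ 9 / 8 := by
    rw [← CStarRing.norm_star_mul_self]
    have := norm_le_norm_add_norm_sub' (star ξ * ξ) β
    linarith
  have d4 : 1 ≤ ‖β * β * β‖ := by
    have e1 : ‖β * β‖ = 1 := by rw [sb.norm_mul_self, n2, one_pow]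
    have s2 : IsSelfAdjoint (β * β) := by rw [IsSelfAdjoint, star_mul, sb.star_eq]
    have e2 := s2.norm_mul_self
    have e3 := norm_mul_le (β * β * β) β
    rw [mul_assoc (β * β), e2, e1, n2] at e3
    linarith
  have d5 : 7 / 8 ≤ ‖ξ * β‖ * ‖ξ * β‖ := by
    rw [← CStarRing.norm_star_mul_self]
    have e1 : β * β * β = star (ξ * β) * (ξ * β) - star β * (star ξ * ξ - β) * β := by
      rw [star_mul, sb.star_eq]
      noncomm_ring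
    have e2 := ps_norm3 β (star ξ * ξ - β) β
    have e3 := norm_sub_le (star (ξ * β) * (ξ * β)) (star β * (star ξ * ξ - β) * β)
    rw [← e1] at e3
    rw [n2] at e2
    linarith
  have d6 : ‖ξ * β‖ ≤ 1 / 2 + ‖ξ‖ * (1 / 8) := by
    have e1 : ξ * β = ξ * μ + ξ * (β - μ) := by noncomm_ring
    rw [e1]
    refine (norm_add_le _ _).trans (add_le_add hl ((norm_mul_le _ _).trans ?_))
    gcongr
  have d7 : ‖ξ‖ ≤ 2 := by nlinarith [norm_nonneg ξ]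
  nlinarith [norm_nonneg (ξ * β)]

theorem glue_cut {a e R d : U} (he : Twin e) (ha : Cov a e) {ρ : ℝ} (hρ : 0 < ρ) (hρ' : ρ ≤ 1 / 4)
    (h : ∀ φ : Rep U, φ.π d = 0 → ‖φ.π R‖ ^ 2 ≤ ρ → ‖φ.π a‖ < 1) :
    ∃ l : U, InR e l ∧ (∀ φ : Rep U, φ.π d = 0 → φ.π l = 0) ∧
      Cov a (cut (R * star R + l * star l) ρ) := by
  obtain ⟨l, h1, h2, h3⟩ := glue (j := cut (R * star R) ρ) (d := d) he ha fun φ a1 a2 => by
    rw [map_cut_eq_zero_iff φ (mul_star_self_nonneg R) hρ.le, φ.norm_mul_star] at a1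
    exact h φ a2 a1
  refine ⟨l, h1, h2, fun φ hφ => ?_⟩
  rw [map_cut_eq_zero_iff φ (add_nonneg (mul_star_self_nonneg R) (mul_star_self_nonneg l)) hρ.le] at hφ
  obtain ⟨a1, a2⟩ := glue_sum φ (mul_star_self_nonneg R) (mul_star_self_nonneg l)
  refine h3 φ ((map_cut_eq_zero_iff φ (mul_star_self_nonneg R) hρ.le).2 (a1.trans hφ)) ?_
  rw [φ.norm_mul_star] at a2
  nlinarith [norm_nonneg (φ.π l)]

end Vale.Agent.P133
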