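import Vale.Agent.P133.Gain
import Vale.Agent.P133.Defs

/-! Iteration of the gain and the final deduction.

Plan for `good_pow` (induction on `n`, generalizing everything; `κ = 1 - 1/10^12`). `n = 0`:
`‖x* c y‖ ≤ ‖x‖ ‖y‖`. Step: `gain` gives `m₁, m₂`; `Cov.exists_cut` gives `δ_i` with
`Cov a_i e_i`, `e_i = cut (m_i * star m_i) δ_i`; `u_i = pl (m_i * star m_i) δ_i ∈ m_i U` is a
self-adjoint contraction with `u_i e_i = e_i`; `c' = κ⁻¹ • (u₁ * c * u₂)` has norm `≤ 1` by `Corr`;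
apply the induction hypothesis to `c', e₁, e₂`; for `x ∈ e₁U`, `y ∈ e₂U`: `u₁ x = x`, `u₂ y = y`
(`InR.fix`), `star x * c * y = κ • (star x * c' * y)`.
`spi_of_pi`: `U = Unitization ℂ C` (ordered instance in Mathlib: `Unitization.instPartialOrder`;
`Unitization.inr_nonneg_iff`, `Unitization.norm_inr`). For `k : C`, `Tw (k : U)`: `c * k * r` is
`(z : U)` for some `z : C` (its `fst` is `0`), `star z * z ≥ 0` is properly infinite; read off
the entries `(0,0), (1,1), (0,1)` of the limit (`tendsto_pi_nhds`, `Matrix.mul_apply`,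
`Fin.sum_univ_one`). Take `k₁ = x * x`, `a₁ = η⁻¹ • (x * x)` (same for `y`), `c = 1`, `n` with
`κ^n (‖x‖^2 + 2η + 1) (‖y‖^2 + 2η + 1) < ε`, `2η < ε`, `η ≤ 1`. `b₁ = cut (x * x) η` is killed by every `φ`
killing `m₁` (`‖φ (x x)‖ < η`). `pistar` gives `ξ ∈ m₁U`, `‖ξ* ξ - b₁‖ < η`, so `‖ξ* ξ - x x‖ < 2η`
(`norm_sub_cut_le`); `ξ = x * (x * r)` and `x * r = (s : U)` with `s : C`. -/

namespace Vale.Agent.P133

universe u

theorem good_pow {U : Type u} [CStarAlgebra U] [PartialOrder U] [StarOrderedRing U] (n : ℕ)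
    {c a₁ a₂ k₁ k₂ : U} (t₁ : Tw k₁) (t₂ : Tw k₂) (hc : ‖c‖ ≤ 1)
    (h₁ : Cov a₁ k₁) (h₂ : Cov a₂ k₂) : Good c a₁ a₂ k₁ k₂ ((1 - 1 / 10 ^ 12) ^ n) := by
  induction n generalizing c k₁ k₂ with
  | zero =>
    refine ⟨k₁, k₂, .refl _, .refl _, h₁, h₂, fun x y _ _ => ?_⟩
    calc ‖star x * c * y‖ ≤ ‖star x‖ * ‖c‖ * ‖y‖ := norm_mul₃_le
      _ ≤ ‖x‖ * 1 * ‖y‖ := by rw [norm_star]; gcongr
      _ = _ := by ring
  | succ n ih =>
    obtain ⟨m₁, m₂, r₁, r₂, c₁, c₂, hcor⟩ := gain t₁ t₂ hc h₁ h₂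
    set κ : ℝ := 1 - 1 / 10 ^ 12 with hκ
    have hκ0 : 0 < κ := by norm_num [hκ]
    obtain ⟨δ₁, hδ₁, d₁⟩ := c₁.exists_cut
    obtain ⟨δ₂, hδ₂, d₂⟩ := c₂.exists_cut
    have p₁ : 0 ≤ m₁ * star m₁ := mul_star_self_nonneg m₁
    have p₂ : 0 ≤ m₂ * star m₂ := mul_star_self_nonneg m₂
    have s₁ : IsSelfAdjoint (m₁ * star m₁) := .of_nonneg p₁
    have s₂ : IsSelfAdjoint (m₂ * star m₂) := .of_nonneg p₂
    have e₁ : InR k₁ (cut (m₁ * star m₁) δ₁) :=
      (r₁.trans (.self_mul _ _)).trans (inR_cut s₁ hδ₁)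
    have e₂ : InR k₂ (cut (m₂ * star m₂) δ₂) :=
      (r₂.trans (.self_mul _ _)).trans (inR_cut s₂ hδ₂)
    have hu := hcor _ _ ((InR.self_mul m₁ (star m₁)).trans (inR_pl _ δ₁))
      ((InR.self_mul m₂ (star m₂)).trans (inR_pl _ δ₂))
    rw [(pl_sa s₁ hδ₁).star_eq] at hu
    have hc' : ‖κ⁻¹ • (pl (m₁ * star m₁) δ₁ * c * pl (m₂ * star m₂) δ₂)‖ ≤ 1 := by
      rw [norm_smul, Real.norm_eq_abs, abs_of_pos (inv_pos.2 hκ0), inv_mul_le_iff₀ hκ0]
      refine hu.trans ?_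
      calc κ * ‖pl (m₁ * star m₁) δ₁‖ * ‖pl (m₂ * star m₂) δ₂‖ ≤ κ * 1 * 1 := by
            gcongr
            exacts [norm_pl_le p₁ hδ₁, norm_pl_le p₂ hδ₂]
        _ = κ * 1 := mul_one _
    obtain ⟨m₁', m₂', r₁', r₂', c₁', c₂', hcor'⟩ := ih (t₁.inR e₁) (t₂.inR e₂) hc' d₁ d₂
    refine ⟨m₁', m₂', e₁.trans r₁', e₂.trans r₂', c₁', c₂', fun x y hx hy => ?_⟩
    have f₁ := (r₁'.trans hx).fix (pl_mul_cut s₁ hδ₁)
    have f₂ := (r₂'.trans hy).fix (pl_mul_cut s₂ hδ₂)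
    have f₃ : star x * pl (m₁ * star m₁) δ₁ = star x := by
      have := congrArg star f₁
      rwa [star_mul, (pl_sa s₁ hδ₁).star_eq] at this
    have h1 := hcor' x y hx hy
    rw [mul_smul_comm, smul_mul_assoc, ← mul_assoc, ← mul_assoc, f₃, mul_assoc _ _ y, f₂, norm_smul,
      Real.norm_eq_abs, abs_of_pos (inv_pos.2 hκ0), inv_mul_le_iff₀ hκ0] at h1
    calc _ ≤ _ := h1
      _ = _ := by ring

section Unital

open Filter Topology Matrix

variable {C : Type u} [NonUnitalCStarAlgebra C] [PartialOrder C] [StarOrderedRing C]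

omit [PartialOrder C] [StarOrderedRing C] in
theorem iter_exists_inr (c r : Unitization ℂ C) (k : C) :
    ∃ z : C, c * (k : Unitization ℂ C) * r = z :=
  ⟨(c * k * r).snd, Unitization.ext (by simp) (by simp)⟩

omit [PartialOrder C] [StarOrderedRing C] in
theorem iter_entry (x : Matrix (Fin 1) (Fin 2) C) (h : C) (a b : Fin 2) :
    (xᴴ * Matrix.diagonal (fun _ : Fin 1 => h) * x) a b = star (x 0 a) * h * x 0 b := by
  simp [Matrix.mul_apply]

theorem iter_tw (h : PurelyInfinite C) (k : C) : Tw (k : Unitization ℂ C) := by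
  intro c r ε hε
  obtain ⟨z, hz⟩ := iter_exists_inr c r k
  obtain ⟨x, hx⟩ := h _ (star_mul_self_nonneg z)
  have h1 : ∀ a b : Fin 2, ∀ᶠ j in atTop, ‖star (x j 0 a) * (star z * z) * x j 0 b -
      Matrix.diagonal (fun _ : Fin 2 => star z * z) a b‖ < ε := fun a b => by
    have h2 := Metric.tendsto_nhds.1 (tendsto_pi_nhds.1 (tendsto_pi_nhds.1 hx a) b) ε hε
    simpa only [iter_entry, dist_eq_norm] using h2
  obtain ⟨j, ⟨h2, h3⟩, h4⟩ := (((h1 0 0).and (h1 1 1)).and (h1 0 1)).exists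
  have e : ∀ a b : C, star ((z : Unitization ℂ C) * a) * (z * b) =
      ((star a * (star z * z) * b : C) : Unitization ℂ C) := fun a b => by
    simp only [Unitization.inr_mul, Unitization.inr_star, star_mul, mul_assoc]
  have e' : star (z : Unitization ℂ C) * z = ((star z * z : C) : Unitization ℂ C) := by
    simp only [Unitization.inr_mul, Unitization.inr_star]
  rw [hz]
  refine ⟨x j 0 0, x j 0 1, ?_, ?_, ?_⟩
  · rw [e, e', ← Unitization.inr_sub, Unitization.norm_inr]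
    simpa using h2
  · rw [e, e', ← Unitization.inr_sub, Unitization.norm_inr]
    simpa using h3
  · rw [e, Unitization.norm_inr]
    simpa using h4

theorem iter_lift (h : PurelyInfinite C) {x : C} (hx : 0 ≤ x) {η : ℝ} (hη : 0 < η)
    {m : Unitization ℂ C} (hm : InR ((x * x : C) : Unitization ℂ C) m)
    (hc : Cov (η⁻¹ • ((x * x : C) : Unitization ℂ C)) m) :
    ∃ s : C, InR m ((x * s : C) : Unitization ℂ C) ∧ ‖star s * (x * x) * s - x * x‖ < 2 * η := by
  have hx' : IsSelfAdjoint x := .of_nonneg hx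
  have hk : 0 ≤ ((x * x : C) : Unitization ℂ C) :=
    Unitization.inr_nonneg_iff.2 (by simpa only [hx'.star_eq] using star_mul_self_nonneg x)
  obtain ⟨ξ, hξ, h1⟩ := pistar ((iter_tw h _).inR hm).twin (cut_nonneg _ η) (fun φ hφ => by
    have h2 := hc φ hφ
    rw [φ.map_rsmul, norm_smul, Real.norm_eq_abs, abs_of_pos (inv_pos.2 hη),
      inv_mul_lt_iff₀ hη, mul_one] at h2
    exact (map_cut_eq_zero_iff φ hk hη.le).2 h2.le) hη
  obtain ⟨r, hr⟩ := hm.trans hξ
  obtain ⟨s, hs⟩ := iter_exists_inr 1 r x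
  have e : ξ = ((x * s : C) : Unitization ℂ C) := by
    rw [hr, Unitization.inr_mul, Unitization.inr_mul, ← hs, one_mul, mul_assoc]
  refine ⟨s, e ▸ hξ, ?_⟩
  have e2 : ((star s * (x * x) * s - x * x : C) : Unitization ℂ C) =
      (star ξ * ξ - cut ((x * x : C) : Unitization ℂ C) η) -
        (((x * x : C) : Unitization ℂ C) - cut ((x * x : C) : Unitization ℂ C) η) := by
    rw [e, ← Unitization.inr_star, ← Unitization.inr_mul, star_mul, hx'.star_eq,
      Unitization.inr_sub, sub_sub_sub_cancel_right]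
    simp only [mul_assoc]
  rw [← Unitization.norm_inr (𝕜 := ℂ), e2]
  linarith [norm_sub_le (star ξ * ξ - cut ((x * x : C) : Unitization ℂ C) η)
    (((x * x : C) : Unitization ℂ C) - cut ((x * x : C) : Unitization ℂ C) η),
    norm_sub_cut_le hk hη.le]

omit [PartialOrder C] [StarOrderedRing C] in
theorem iter_norm {x s : C} (hx : IsSelfAdjoint x) (h : ‖star s * (x * x) * s - x * x‖ < 2) :
    ‖x * s‖ ≤ ‖x * x‖ + 3 := by
  have h1 : ‖x * s‖ * ‖x * s‖ = ‖star s * (x * x) * s‖ := by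
    rw [← CStarRing.norm_star_mul_self, star_mul, hx.star_eq]
    simp only [mul_assoc]
  have h2 := norm_sub_norm_le (star s * (x * x) * s) (x * x)
  nlinarith [sq_nonneg (‖x * s‖ - 1), norm_nonneg (x * x)]

end Unital

theorem spi_of_pi (C : Type u) [NonUnitalCStarAlgebra C] [PartialOrder C] [StarOrderedRing C]
    (h : PurelyInfinite C) : StronglyPurelyInfinite C := by
  intro x y hx hy ε hε
  have hx' : IsSelfAdjoint x := .of_nonneg hx
  have hy' : IsSelfAdjoint y := .of_nonneg hy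
  set η := min (ε / 2) 1 with hη
  have hη0 : 0 < η := lt_min (half_pos hε) one_pos
  have hη1 : η ≤ ε / 2 := min_le_left _ _
  have hη2 : η ≤ 1 := min_le_right _ _
  have hcov : ∀ k : Unitization ℂ C, Cov (η⁻¹ • k) k := fun k φ hφ => by
    rw [φ.map_rsmul, hφ, smul_zero, norm_zero]
    exact one_pos
  have hB : 0 < (‖x * x‖ + 3) * (‖y * y‖ + 3) := by positivity
  obtain ⟨n, hn⟩ := exists_pow_lt_of_lt_one (div_pos hε hB)
    (show (1 - 1 / 10 ^ 12 : ℝ) < 1 by norm_num)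
  obtain ⟨m₁, m₂, r₁, r₂, c₁, c₂, hcor⟩ := good_pow n (c := 1) (iter_tw h (x * x))
    (iter_tw h (y * y)) (by simp) (hcov _) (hcov _)
  obtain ⟨s, hs, h1⟩ := iter_lift h hx hη0 r₁ c₁
  obtain ⟨t, ht, h2⟩ := iter_lift h hy hη0 r₂ c₂
  refine ⟨s, t, by linarith, by linarith, ?_⟩
  have h3 := hcor _ _ hs ht
  rw [mul_one, ← Unitization.inr_star, ← Unitization.inr_mul, Unitization.norm_inr,
    Unitization.norm_inr, Unitization.norm_inr, star_mul, hx'.star_eq] at h3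
  have h4 := iter_norm hx' (s := s) (by linarith)
  have h5 := iter_norm hy' (s := t) (by linarith)
  rw [lt_div_iff₀ hB] at hn
  calc ‖star s * (x * y) * t‖ = ‖star s * x * (y * t)‖ := by simp only [mul_assoc]
    _ ≤ _ := h3
    _ ≤ (1 - 1 / 10 ^ 12) ^ n * (‖x * x‖ + 3) * (‖y * y‖ + 3) := by gcongr
    _ < ε := by rwa [mul_assoc]

theorem pi_of_spi (C : Type u) [NonUnitalCStarAlgebra C] [PartialOrder C] [StarOrderedRing C]
    (h : StronglyPurelyInfinite C) : PurelyInfinite C := by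
  intro a ha
  have h1 := fun j : ℕ => h (CFC.sqrt a) (CFC.sqrt a) (CFC.sqrt_nonneg a) (CFC.sqrt_nonneg a)
    (1 / ((j : ℝ) + 1)) (by positivity)
  simp only [CFC.sqrt_mul_sqrt_self a ha] at h1
  choose s t h1 h2 h3 using h1
  have key : ∀ (f : ℕ → C) (b : C), (∀ j : ℕ, ‖f j - b‖ < 1 / ((j : ℝ) + 1)) →
      Filter.Tendsto f Filter.atTop (nhds b) := fun f b hf =>
    tendsto_iff_norm_sub_tendsto_zero.2 (squeeze_zero (fun _ => norm_nonneg _)
      (fun j => (hf j).le) tendsto_one_div_add_atTop_nhds_zero_nat)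
  refine ⟨fun j => Matrix.of fun _ b => ![s j, t j] b, ?_⟩
  refine tendsto_pi_nhds.2 fun b => tendsto_pi_nhds.2 fun b' => ?_
  simp only [iter_entry, Matrix.of_apply]
  fin_cases b <;> fin_cases b'
  · exact key _ _ h1
  · exact key _ _ fun j => by simpa using h3 j
  · refine key _ _ fun j => ?_
    have h4 := h3 j
    rw [← norm_star, star_mul, star_mul, star_star, (IsSelfAdjoint.of_nonneg ha).star_eq,
      ← mul_assoc] at h4
    simpa using h4
  · exact key _ _ h2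

end Vale.Agent.P133
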