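import Vale.Agent.P133.Dom

/-! The nested lemma.

Plan. WLOG work with `τ' = min τ (1/32) / 3`. `exists_nrm y δ` gives `z₀ ∈ yU`; `Tw y` gives twins
`z = z₀ s`, `z' = z₀ t` with error `τ'` (`(hy.inR _).twin`), so `‖z‖^2, ‖z'‖^2 ≤ 1 + τ'`.
Put `h = z * star z`, `f = 1 - pl h (1/2) = 1 - h * psi h (1/2)` (`‖psi‖ ≤ 2`),
`w = (f * e) * star (f * e) + z' * star z'`, `g = cut h (1/2)` (`inR_cut`, `h ∈ yU`).
(1) `‖φ w‖ ≤ 1/16` gives `‖φ (f e)‖ ≤ 1/4` and `‖φ z'‖^2 ≤ 1/16`, so `‖φ h‖ = ‖φ z‖^2 ≤ 1/16 + 2τ' ≤ 1/8`,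
and `e = f e + h psi e` gives `‖φ e‖ ≤ 1/4 + 1/4`.
(2) `φ g = 0` gives `‖φ z‖^2 ≤ 1/2` (`map_cut_eq_zero_iff`), so `‖φ z₀‖^2 ≤ 1/2 + τ' < 1`.
(3) `f g = 0` (`pl_mul_cut`), `f` self-adjoint, so `g w g = star (star z' * g) * (star z' * g)`, and
`g = pl h (1/2) * g = z * (star z * psi * g)`, so `‖φ (star z' * g)‖ ≤ ‖star z' * z‖ ‖z‖ 2 ‖φ g‖`.
(4) `p z = z`, `p z' = z'`, `p f e = p e - z (star z) psi e = f e`.
(5) `v f e = -(v z) (star z * psi * e)`, so `‖φ (v f e)‖ ≤ s ‖z‖ ‖z‖ 2`, `‖φ (v z')‖ ≤ s ‖z'‖`, and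
`v w v = (v f e) star (v f e) + (v z') star (v z')`; `4 (1+τ')^2 + (1+τ') ≤ 25/4`. -/

namespace Vale.Agent.P133

universe u

variable {U : Type u} [CStarAlgebra U] [PartialOrder U] [StarOrderedRing U]

omit [PartialOrder U] [StarOrderedRing U] in
theorem nest_close (φ : Rep U) {a b : U} {η : ℝ} (h : ‖star a * a - star b * b‖ < η) :
    ‖φ.π a‖ ^ 2 < ‖φ.π b‖ ^ 2 + η ∧ ‖φ.π b‖ ^ 2 < ‖φ.π a‖ ^ 2 + η := by
  have h1 := (φ.norm_le _).trans_lt h
  rw [map_sub] at h1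
  have h2 := (abs_norm_sub_norm_le _ _).trans_lt h1
  rw [φ.norm_star_mul, φ.norm_star_mul, abs_lt] at h2
  constructor <;> linarith [h2.1, h2.2]

omit [PartialOrder U] [StarOrderedRing U] in
theorem nest_norm {a b : U} {η : ℝ} (h : ‖star a * a - star b * b‖ < η) (hb : ‖b‖ ≤ 1) :
    ‖a‖ ^ 2 ≤ 1 + η := by
  have h2 := (abs_norm_sub_norm_le _ _).trans_lt h
  rw [CStarRing.norm_star_mul_self, CStarRing.norm_star_mul_self, abs_lt] at h2
  nlinarith [h2.2, norm_nonneg b]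

omit [PartialOrder U] [StarOrderedRing U] in
theorem Rep.nest_mul_r (φ : Rep U) (a b : U) : ‖φ.π (a * b)‖ ≤ ‖φ.π a‖ * ‖b‖ := by
  rw [map_mul]
  exact (norm_mul_le _ _).trans (mul_le_mul_of_nonneg_left (φ.norm_le b) (norm_nonneg _))

omit [PartialOrder U] [StarOrderedRing U] in
theorem Rep.nest_mul_l (φ : Rep U) (a b : U) : ‖φ.π (a * b)‖ ≤ ‖a‖ * ‖φ.π b‖ := by
  rw [map_mul]
  exact (norm_mul_le _ _).trans (mul_le_mul_of_nonneg_right (φ.norm_le a) (norm_nonneg _))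

theorem nest {y e : U} (hy : Tw y) (he : ‖e‖ ≤ 1) {δ τ : ℝ} (hδ : 0 < δ) (hτ : 0 < τ) :
    ∃ w g : U, 0 ≤ w ∧ InR y g ∧
      (∀ φ : Rep U, ‖φ.π w‖ ≤ 1 / 16 → ‖φ.π e‖ < 1) ∧
      (∀ φ : Rep U, φ.π g = 0 → ‖φ.π y‖ < δ) ∧
      (∀ φ : Rep U, ‖φ.π (star g * w * g)‖ ≤ τ ^ 2 * ‖φ.π g‖ ^ 2) ∧
      (∀ p : U, p * y = y → p * e = e → p * w = w) ∧
      (∀ (v : U) (φ : Rep U) (s : ℝ), IsSelfAdjoint v → v * e = 0 → 0 ≤ s →
        (∀ x, InR y x → ‖φ.π (v * x)‖ ≤ s * ‖φ.π x‖) → ‖φ.π (v * w * v)‖ ≤ (5 / 2 * s) ^ 2) := by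
  set η := min τ (1 / 32) / 3 with hη
  have hη0 : 0 < η := by positivity
  have hη1 : η ≤ τ / 3 := by rw [hη]; linarith [min_le_left τ (1 / 32)]
  have hη2 : η ≤ 1 / 96 := by rw [hη]; linarith [min_le_right τ (1 / 32)]
  obtain ⟨z₀, hz₀, hn₀, hd₀⟩ := exists_nrm y hδ
  obtain ⟨s₀, t₀, e1, e2, e3⟩ := (hy.inR hz₀).twin η hη0
  have hz : InR y (z₀ * s₀) := hz₀.mul _
  have hz' : InR y (z₀ * t₀) := hz₀.mul _
  generalize z₀ * s₀ = z at e1 e3 hz
  generalize z₀ * t₀ = z' at e2 e3 hz'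
  have n1 := nest_norm e1 hn₀
  have n2 := nest_norm e2 hn₀
  have hh : 0 ≤ z * star z := mul_star_self_nonneg z
  have hs : IsSelfAdjoint (z * star z) := .of_nonneg hh
  have hψ : ‖psi (z * star z) (1 / 2)‖ ≤ 2 :=
    (norm_psi_le _ (by norm_num)).trans (by norm_num)
  have hpl := pl_mul_cut hs (ρ := 1 / 2) (by norm_num)
  have hfs : IsSelfAdjoint (1 - pl (z * star z) (1 / 2)) :=
    (IsSelfAdjoint.one U).sub (pl_sa hs (by norm_num))
  have hg : InR y (cut (z * star z) (1 / 2)) := (hz.mul _).trans (inR_cut hs (by norm_num))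
  have hg0 := fun φ : Rep U => map_cut_eq_zero_iff φ hh (ρ := 1 / 2) (by norm_num)
  rw [pl] at hpl hfs
  generalize psi (z * star z) (1 / 2) = ψ at hψ hpl hfs
  generalize cut (z * star z) (1 / 2) = g at hpl hg hg0
  set f := 1 - z * star z * ψ with hf
  have hψe : ‖ψ * e‖ ≤ 2 := (norm_mul_le _ _).trans (by nlinarith [norm_nonneg ψ, norm_nonneg e])
  refine ⟨f * e * star (f * e) + z' * star z', g,
    add_nonneg (mul_star_self_nonneg _) (mul_star_self_nonneg _), hg, fun φ hφ => ?_,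
    fun φ hφ => ?_, fun φ => ?_, fun p h1 h2 => ?_, fun v φ s hv hve hs0 hb => ?_⟩
  · have a1 := CStarAlgebra.norm_le_norm_of_nonneg_of_le (φ.nonneg (mul_star_self_nonneg (f * e)))
      (φ.mono (le_add_of_nonneg_right (mul_star_self_nonneg z')))
    have a2 := CStarAlgebra.norm_le_norm_of_nonneg_of_le (φ.nonneg (mul_star_self_nonneg z'))
      (φ.mono (le_add_of_nonneg_left (mul_star_self_nonneg (f * e))))
    rw [φ.norm_mul_star] at a1 a2
    have a3 : ‖φ.π (f * e)‖ ≤ 1 / 4 := by nlinarith [norm_nonneg (φ.π (f * e))]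
    have a4 := φ.nest_mul_r (z * star z) (ψ * e)
    rw [φ.norm_mul_star] at a4
    have a5 := (nest_close φ e1).1
    have a6 := (nest_close φ e2).2
    have a7 : φ.π e = φ.π (f * e) + φ.π (z * star z * (ψ * e)) := by
      rw [← map_add, hf]
      congr 1
      noncomm_ring
    have a8 := norm_add_le (φ.π (f * e)) (φ.π (z * star z * (ψ * e)))
    rw [← a7] at a8
    have a9 : ‖φ.π z‖ ^ 2 * ‖ψ * e‖ ≤ 1 / 8 * 2 :=
      mul_le_mul (by linarith) hψe (norm_nonneg _) (by norm_num)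
    linarith
  · have a1 := (hg0 φ).1 hφ
    rw [φ.norm_mul_star] at a1
    have a2 := (nest_close φ e1).2
    exact hd₀ φ (by nlinarith [norm_nonneg (φ.π z₀)])
  · have a1 : f * g = 0 := by rw [hf, sub_mul, one_mul, hpl, sub_self]
    have a2 : star g * (f * e * star (f * e) + z' * star z') * g =
        star (star z' * g) * (star z' * g) := by
      rw [star_mul f e, hfs.star_eq, mul_add, add_mul, mul_assoc (star g), mul_assoc (f * e),
        mul_assoc (star e), a1]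
      simp only [mul_zero, zero_add, star_mul, star_star, mul_assoc]
    have a3 : star z' * g = star (star z * z') * (star z * ψ) * g := by
      conv_lhs => rw [← hpl]
      simp only [star_mul, star_star, mul_assoc]
    have a4 : ‖star (star z * z') * (star z * ψ)‖ ≤ τ := by
      have b1 : ‖z‖ ≤ 3 / 2 := by nlinarith [norm_nonneg z]
      have b2 : ‖star z * ψ‖ ≤ 3 := (norm_mul_le _ _).trans (by
        rw [norm_star]
        nlinarith [norm_nonneg z, norm_nonneg ψ])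
      refine (norm_mul_le _ _).trans ?_
      rw [norm_star]
      nlinarith [norm_nonneg (star z * z'), norm_nonneg (star z * ψ)]
    rw [a2, φ.norm_star_mul, ← mul_pow]
    refine pow_le_pow_left₀ (norm_nonneg _) ?_ 2
    rw [a3]
    exact (φ.nest_mul_l _ _).trans (mul_le_mul_of_nonneg_right a4 (norm_nonneg _))
  · have a1 : p * (f * e) = f * e := by
      rw [hf, sub_mul, one_mul, mul_sub, h2, mul_assoc z, mul_assoc z, ← mul_assoc p, hz.fix h1]
    rw [mul_add, ← mul_assoc p, a1, ← mul_assoc p, hz'.fix h1]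
  · have a1 : v * (f * e * star (f * e) + z' * star z') * v =
        v * (f * e) * star (v * (f * e)) + v * z' * star (v * z') := by
      rw [star_mul v, star_mul v, hv.star_eq]
      noncomm_ring
    have a2 : v * (f * e) = -(v * z * (star z * (ψ * e))) := by
      rw [hf, sub_mul, one_mul, mul_sub, hve]
      noncomm_ring
    have a3 : ‖φ.π (v * z)‖ ≤ s * ‖z‖ :=
      (hb z hz).trans (mul_le_mul_of_nonneg_left (φ.norm_le z) hs0)
    have a4 : ‖φ.π (v * z')‖ ≤ s * ‖z'‖ :=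
      (hb z' hz').trans (mul_le_mul_of_nonneg_left (φ.norm_le z') hs0)
    have a5 : ‖star z * (ψ * e)‖ ≤ ‖z‖ * 2 := (norm_mul_le _ _).trans (by
      rw [norm_star]
      exact mul_le_mul_of_nonneg_left hψe (norm_nonneg _))
    have a6 : ‖φ.π (v * (f * e))‖ ≤ s * (2 * (1 + η)) := by
      rw [a2, map_neg, norm_neg]
      refine (φ.nest_mul_r _ _).trans
        ((mul_le_mul a3 a5 (norm_nonneg _) (by positivity)).trans ?_)
      calc s * ‖z‖ * (‖z‖ * 2) = s * (2 * ‖z‖ ^ 2) := by ring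
        _ ≤ _ := by gcongr
    have a7 := pow_le_pow_left₀ (norm_nonneg _) a6 2
    have a8 := pow_le_pow_left₀ (norm_nonneg _) a4 2
    rw [a1, map_add]
    refine (norm_add_le _ _).trans ?_
    rw [φ.norm_mul_star, φ.norm_mul_star]
    have a9 : (2 * (1 + η)) ^ 2 + ‖z'‖ ^ 2 ≤ (5 / 2) ^ 2 := by nlinarith
    calc _ ≤ (s * (2 * (1 + η))) ^ 2 + (s * ‖z'‖) ^ 2 := add_le_add a7 a8
      _ = s ^ 2 * ((2 * (1 + η)) ^ 2 + ‖z'‖ ^ 2) := by ring
      _ ≤ s ^ 2 * (5 / 2) ^ 2 := by gcongr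
      _ = _ := by ring

end Vale.Agent.P133
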