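import Vale.Agent.P133.Nest
import Vale.Agent.P133.Comb

/-! The case where the first module is generated by a projection.

Plan. `δ` from `h₂.dom`. `nest` with `y = p * c * k` (`Tw`: `hk.left (p * c)`), `e = p` (`‖p‖ ≤ 1`),
`δ := κ δ`, `τ := κ / 8`. `p w = w`, so `InR p w`. Apply `comb` with `W = w`, `ρ = 1/16`.
`Cov a₁ (cut w (1/16))`: `‖φ w‖ ≤ 1/16`, so `‖φ p‖ < 1`, so `φ p = 0` (idempotent of norm `< 1`).
Let `m = pl w (1/16)`; `p m = m`, `m p = m` (star), `0 ≤ m ≤ 1`, so `m = p m p ≤ p = star p * p`.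
Assume `κ^2 • φ (k* k) ≤ φ ((ck)* m (ck))`. Then `κ^2 ‖φ k‖^2 ≤ ‖φ (p c k)‖^2`.
Write `g = p c k r`, `ζ = k r`; conjugating by `φ r`: `κ^2 • φ (ζ* ζ) ≤ φ ((cζ)* m (cζ)) = φ (g* m g)`
`≤ 16 • φ (g* w g)` (`pl_le_smul`), so `κ^2 ‖φ ζ‖^2 ≤ 16 τ^2 ‖φ g‖^2 ≤ (κ^2/4) ‖φ ζ‖^2`, so `φ ζ = 0`,
`φ g = 0`, `‖φ (p c k)‖ < κ δ`, `‖φ k‖ ≤ δ`, `‖φ a₂‖ < 1`. -/

namespace Vale.Agent.P133

universe u

variable {U : Type u} [CStarAlgebra U] [PartialOrder U] [StarOrderedRing U]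

omit [PartialOrder U] [StarOrderedRing U] in
theorem proj_eq_zero {V : Type*} [NormedRing V] {a b : V} (h : a * b = b) (ha : ‖a‖ < 1) :
    b = 0 := by
  have h1 := norm_mul_le a b
  rw [h] at h1
  exact norm_le_zero_iff.1 (by nlinarith [norm_nonneg b])

theorem proj_norm_le (φ : Rep U) {x T : U} {κ : ℝ} (h : κ ^ 2 • φ.π (star x * x) ≤ φ.π T) :
    κ ^ 2 * ‖φ.π x‖ ^ 2 ≤ ‖φ.π T‖ := by
  have h1 := CStarAlgebra.norm_le_norm_of_nonneg_of_le
    (smul_nonneg (sq_nonneg κ) (φ.nonneg (star_mul_self_nonneg x))) h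
  rwa [norm_smul, φ.norm_star_mul, Real.norm_of_nonneg (sq_nonneg κ)] at h1

theorem good_proj {c a₁ a₂ p k : U} (hp : IsSelfAdjoint p) (hpp : p * p = p) (hk : Tw k)
    (hc : ‖c‖ ≤ 1) (h₁ : Cov a₁ p) (h₂ : Cov a₂ k) {κ : ℝ} (hκ : 0 < κ) :
    Good c a₁ a₂ p k κ := by
  obtain ⟨δ, hδ, hd⟩ := h₂.dom
  have hp1 : ‖p‖ ≤ 1 := by
    have h1 := CStarRing.norm_star_mul_self (x := p)
    rw [hp.star_eq, hpp] at h1
    nlinarith [norm_nonneg p]
  obtain ⟨w, g, hw, ⟨r, hg⟩, n1, n2, n3, n4, -⟩ := nest (hk.left (p * c)) hp1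
    (δ := κ * δ) (τ := κ / 8) (by positivity) (by positivity)
  have hpw : p * w = w := n4 p (by rw [← mul_assoc, ← mul_assoc, hpp]) hpp
  refine comb hw (ρ := 1 / 16) (by norm_num) hκ.le ⟨w, hpw.symm⟩ (fun φ hφ => h₁ φ ?_)
    fun φ hφ => hd φ ?_
  · refine proj_eq_zero (a := φ.π p) (by rw [← map_mul, hpp]) (n1 φ ?_)
    exact (map_cut_eq_zero_iff φ hw (by norm_num)).1 hφ
  have hws : IsSelfAdjoint w := .of_nonneg hw
  have m1 := pl_le_one hws (ρ := 1 / 16) (by norm_num)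
  have m2 := pl_le_smul hw (ρ := 1 / 16) (by norm_num)
  have m3 : p * pl w (1 / 16) = pl w (1 / 16) := (inR_pl w _).fix hpw
  have m4 : pl w (1 / 16) * p = pl w (1 / 16) := by
    have := congrArg star m3
    rwa [star_mul, hp.star_eq, (pl_sa hws (by norm_num)).star_eq] at this
  generalize pl w (1 / 16) = m at hφ m1 m2 m3 m4
  have m5 : ∀ x : U, star x * m * x = star (p * x) * m * (p * x) := fun x => by
    rw [star_mul, hp.star_eq, mul_assoc (star x) p, m3, ← mul_assoc _ p, mul_assoc (star x) m p, m4]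
  -- the first estimate
  have a1 : κ ^ 2 * ‖φ.π k‖ ^ 2 ≤ ‖φ.π (p * c * k)‖ ^ 2 := by
    rw [← φ.norm_star_mul (p * c * k)]
    refine proj_norm_le φ (hφ.trans (φ.mono ?_))
    have := star_left_conjugate_le_conjugate m1 (p * (c * k))
    rwa [← m5, mul_one, ← mul_assoc p] at this
  -- the second estimate
  have a2 : κ ^ 2 • φ.π (star (k * r) * (k * r)) ≤ φ.π ((16 : ℝ) • (star g * w * g)) := by
    have b1 := star_left_conjugate_le_conjugate hφ (φ.π r)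
    rw [mul_smul_comm, smul_mul_assoc, ← map_star, ← map_mul, ← map_mul, ← map_mul,
      ← map_mul] at b1
    have b2 : star r * (star k * k) * r = star (k * r) * (k * r) := by
      simp only [star_mul, mul_assoc]
    have b3 : star r * (star (c * k) * m * (c * k)) * r = star g * m * g := by
      rw [m5, hg]
      simp only [star_mul, mul_assoc]
    rw [b2, b3] at b1
    refine b1.trans (φ.mono ?_)
    have := star_left_conjugate_le_conjugate m2 g
    rwa [mul_smul_comm, smul_mul_assoc, one_div, inv_inv] at this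
  have a3 := proj_norm_le φ a2
  rw [φ.map_rsmul, norm_smul, Real.norm_of_nonneg (by norm_num)] at a3
  have a4 : ‖φ.π g‖ ≤ ‖φ.π (k * r)‖ := by
    rw [hg, mul_assoc (p * c)]
    refine (φ.nest_mul_l _ _).trans (mul_le_of_le_one_left (norm_nonneg _) ?_)
    exact (norm_mul_le _ _).trans (mul_le_one₀ hp1 (norm_nonneg _) hc)
  have a5 := pow_le_pow_left₀ (norm_nonneg _) a4 2
  have a6 := n3 φ
  have a7 : κ ^ 2 * ‖φ.π g‖ ^ 2 ≤ 0 := by nlinarith [sq_nonneg κ]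
  have a8 : φ.π g = 0 := by
    have : ‖φ.π g‖ ^ 2 ≤ 0 := nonpos_of_mul_nonpos_right a7 (by positivity) |> fun h => h
    exact norm_eq_zero.1 (pow_eq_zero_iff two_ne_zero |>.1 (le_antisymm this (sq_nonneg _)))
  have a9 := pow_le_pow_left₀ (norm_nonneg _) (n2 φ a8).le 2
  rw [← mul_pow] at a1
  exact le_of_mul_le_mul_left (le_of_pow_le_pow_left₀ two_ne_zero (by positivity) (a1.trans a9)) hκ

end Vale.Agent.P133
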