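import Vale.Agent.P133.PIstar

/-! A full projection from a spectral gap in all quotients (scaling element argument).

Plan. `h = y * star y`, `h' = cut h (γ/2)`, `k = cut h' (γ/2)`, `m = pl h' (γ/2)`, `n = 1 - m`,
`g = 1 - n * n = m * (1 + n)`, `G = pl h (γ/2)`. Facts: `n k = 0` (`pl_mul_cut`), `g k = k`,
`0 ≤ g ≤ 1`, `G h' = h' = h' G`, so `G m = m = m G` (`m = h' psi = psi h'`, `pl_eq'`), `G g = g = g G`,
`n G = G n`; `k, h', g, G ∈ yU` (`inR_cut`, `inR_pl`). If `φ k = 0` then `‖φ h'‖ ≤ γ/2`, so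
`‖φ h‖ ≤ γ` (`norm_sub_cut_le`), so `φ y = 0`, so `φ g = 0`. `pistar` gives `x₀ ∈ kU` with
`x₀* x₀ ≈ g`; twins `x₁, x'` of `x₀` (`Tw`), all errors `< ε = 1/100`. Put `x = x₁ * G`,
`v = x + n`, `E = star x * x - g = G (x₁* x₁ - g) G`, `‖E‖ < 2ε`; `n x = 0 = star x * n`, so
`star v * v = 1 + E`, a unit (`Units.oneSub`/`NormedRing.isUnit_one_sub..`, norm `< 1`); let `T` be
its inverse (self-adjoint, `T = 1 - E T`, so `‖T‖ ≤ 2`). `p = 1 - v T star v` is a self-adjoint
idempotent. `p = (1 - v star v) + v E T star v`, `1 - v star v = g - x star x - x n - G n star x₁`,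
`v E = x E + G n star x₁ x - g n` (use `n G = G n`, `n g = g n`, `star x = G star x₁`), all in `yU`.
`star v * x' = G (star x₁ * x') + n x' = G (star x₁ * x')` has norm `< ε`; `p x' = x' - v T (star v x')`.
If `φ p = 0` then `‖φ x'‖ ≤ ‖v‖ ‖T‖ ε ≤ 4 ε` (`‖v‖^2 ≤ 1 + 2ε`), so `‖φ g‖ ≤ 16 ε^2 + 2 ε < 1`, and
`g k = k` forces `φ k = 0`, so `φ y = 0`. (If `U` is trivial `‖1‖ = 0`; use `‖1‖ ≤ 1`:
`CStarRing.norm_one` needs `Nontrivial`, else `norm_one_sub_le le_rfl zero_le_one`.) -/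

namespace Vale.Agent.P133

universe u

variable {U : Type u} [CStarAlgebra U] [PartialOrder U] [StarOrderedRing U]

theorem scal_core {y k n G : U} (hk : Tw k) (hyk : InR y k) (hyG : InR y G)
    (hyg : InR y (1 - n * n)) (hg0 : 0 ≤ 1 - n * n) (hn : IsSelfAdjoint n) (hG : IsSelfAdjoint G)
    (hG1 : ‖G‖ ≤ 1) (hnk : n * k = 0) (hGg : G * (1 - n * n) * G = 1 - n * n)
    (hnG : n * G = G * n) (h : ∀ φ : Rep U, φ.π k = 0 → φ.π y = 0) :
    ∃ p : U, IsSelfAdjoint p ∧ p * p = p ∧ InR y p ∧ ∀ φ : Rep U, φ.π p = 0 → φ.π y = 0 := by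
  have h1 : ‖(1 : U)‖ ≤ 1 := by simpa using norm_one_sub_le (w := (0 : U)) le_rfl zero_le_one
  obtain ⟨x₀, hx₀, e0⟩ := pistar hk.twin hg0 (fun φ hφ => hyg.map_eq_zero φ (h φ hφ))
    (ε := 1 / 100) (by norm_num)
  obtain ⟨s, t, e1, e2, e3⟩ := (hk.inR hx₀).twin (1 / 100) (by norm_num)
  have hx₁ : InR k (x₀ * s) := hx₀.mul _
  have hx' : InR k (x₀ * t) := hx₀.mul _
  generalize x₀ * s = x₁ at e1 e3 hx₁
  generalize x₀ * t = x' at e2 e3 hx'
  have hgk : (1 - n * n) * k = k := by rw [sub_mul, one_mul, mul_assoc, hnk, mul_zero, sub_zero]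
  have hgs : IsSelfAdjoint (1 - n * n) := .of_nonneg hg0
  have n1 : n * x₁ = 0 := hx₁.kill hnk
  have n2 : star x₁ * n = 0 := by
    have := congrArg star n1
    rwa [star_mul, hn.star_eq, star_zero] at this
  have n3 : n * x' = 0 := hx'.kill hnk
  have d1 : ‖star x₁ * x₁ - (1 - n * n)‖ ≤ 1 / 50 := by
    have := norm_add_le (star x₁ * x₁ - star x₀ * x₀) (star x₀ * x₀ - (1 - n * n))
    rw [sub_add_sub_cancel] at this
    linarith
  have d2 : ‖star x' * x' - (1 - n * n)‖ ≤ 1 / 50 := by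
    have := norm_add_le (star x' * x' - star x₀ * x₀) (star x₀ * x₀ - (1 - n * n))
    rw [sub_add_sub_cancel] at this
    linarith
  set E := G * (star x₁ * x₁ - (1 - n * n)) * G with hE
  have hEs : star E = E := by
    rw [hE, star_mul, star_mul, hG.star_eq, ((IsSelfAdjoint.star_mul_self x₁).sub hgs).star_eq,
      mul_assoc]
  have hEn : ‖E‖ ≤ 1 / 50 := by
    have a1 := norm_mul_le (G * (star x₁ * x₁ - (1 - n * n))) G
    have a2 := norm_mul_le G (star x₁ * x₁ - (1 - n * n))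
    have a3 := norm_nonneg (G * (star x₁ * x₁ - (1 - n * n)))
    have a4 := norm_nonneg (star x₁ * x₁ - (1 - n * n))
    nlinarith
  set v := x₁ * G + n with hv
  have hvs : star v = G * star x₁ + n := by rw [hv, star_add, star_mul, hG.star_eq, hn.star_eq]
  have hvv : star v * v = 1 + E := by
    rw [hvs, hv, hE, mul_sub G, sub_mul _ _ G, hGg, add_mul, mul_add, mul_add, mul_assoc G _ n, n2,
      ← mul_assoc n, n1]
    noncomm_ring
  obtain ⟨u, hu⟩ := isUnit_one_sub_of_norm_lt_one (x := -E) (by rw [norm_neg]; linarith)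
  rw [sub_neg_eq_add] at hu
  have t1 : (1 + E) * ↑u⁻¹ = 1 := by rw [← hu, Units.mul_inv]
  have t2 : ↑u⁻¹ * (1 + E) = 1 := by rw [← hu, Units.inv_mul]
  generalize ((u⁻¹ : Uˣ) : U) = T at t1 t2
  have t3 : star T = T := by
    have := congrArg star t1
    rw [star_mul, star_add, star_one, hEs] at this
    rw [← mul_one (star T), ← t1, ← mul_assoc, this, one_mul]
  have t4 : T = 1 - E * T := by rw [← t1]; noncomm_ring
  have t5 : ‖T‖ ≤ 2 := by
    have a1 := norm_sub_le 1 (E * T)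
    rw [← t4] at a1
    have a2 := norm_mul_le E T
    nlinarith [norm_nonneg T]
  have hvn : ‖v‖ ≤ 2 := by
    have a1 := CStarRing.norm_star_mul_self (x := v)
    have a2 := norm_add_le 1 E
    rw [hvv] at a1
    nlinarith [norm_nonneg v]
  have hyx := hyk.trans hx₁
  refine ⟨1 - v * T * star v, ?_, ?_, ?_, fun φ hφ => h φ ?_⟩
  · rw [IsSelfAdjoint, star_sub, star_one, star_mul, star_mul, star_star, t3, mul_assoc]
  · have : v * T * star v * (v * T * star v) = v * T * star v := by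
      calc _ = v * (T * (star v * v)) * T * star v := by noncomm_ring
        _ = _ := by rw [hvv, t2, mul_one]
    rw [sub_mul, mul_sub, mul_sub, this]
    noncomm_ring
  · have a1 : 1 - v * T * star v = 1 - n * n - x₁ * (G * star v) - G * (n * star x₁) +
        (x₁ * (G * E * T * star v) +
          G * (n * (star x₁ * x₁ - (1 - n * n)) * G * T * star v)) := by
      have a2 : n * E = G * (n * (star x₁ * x₁ - (1 - n * n)) * G) := by
        rw [hE, ← mul_assoc, ← mul_assoc, hnG]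
        simp only [mul_assoc]
      have a3 : n * star v = G * (n * star x₁) + n * n := by
        rw [hvs, mul_add, ← mul_assoc, hnG, mul_assoc]
      calc 1 - v * T * star v = 1 - v * (1 - E * T) * star v := by rw [← t4]
        _ = 1 - x₁ * (G * star v) - n * star v +
            (x₁ * (G * E * T * star v) + n * E * T * star v) := by
          generalize star v = v'
          rw [hv]
          noncomm_ring
        _ = _ := by
          rw [a2, a3]
          noncomm_ring
    rw [a1]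
    exact ((hyg.sub (hyx.mul _)).sub (hyG.mul _)).add ((hyx.mul _).add (hyG.mul _))
  · have a1 : star v * x' = G * (star x₁ * x') := by rw [hvs, add_mul, n3, add_zero, mul_assoc]
    have a2 : φ.π x' = φ.π (v * T * (G * (star x₁ * x'))) := by
      rw [← a1, ← mul_assoc, ← sub_eq_zero, ← map_sub, ← one_sub_mul, map_mul, hφ, zero_mul]
    have a3 : ‖φ.π x'‖ ≤ 2 * 2 * (1 * (1 / 100)) := by
      rw [a2]
      refine (φ.norm_le _).trans ((norm_mul_le _ _).trans ?_)
      refine mul_le_mul ((norm_mul_le _ _).trans ?_) ((norm_mul_le _ _).trans ?_) (norm_nonneg _)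
        (by norm_num)
      · exact mul_le_mul hvn t5 (norm_nonneg _) (by norm_num)
      · exact mul_le_mul hG1 e3.le (norm_nonneg _) (by norm_num)
    have a4 := (φ.norm_le _).trans d2
    rw [map_sub, norm_sub_rev] at a4
    have a5 := (norm_sub_norm_le _ _).trans a4
    rw [map_mul φ.π (star x'), map_star, CStarRing.norm_star_mul_self] at a5
    have a6 := norm_mul_le (φ.π (1 - n * n)) (φ.π k)
    rw [← map_mul, hgk] at a6
    have a7 : ‖φ.π (1 - n * n)‖ ≤ 1 / 2 := by nlinarith [norm_nonneg (φ.π x')]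
    exact norm_le_zero_iff.1 (by nlinarith [norm_nonneg (φ.π k)])

theorem exists_proj {y : U} (hy : Tw y) {γ : ℝ} (hγ : 0 < γ)
    (h : ∀ φ : Rep U, ‖φ.π y‖ ^ 2 ≤ γ → φ.π y = 0) :
    ∃ p : U, IsSelfAdjoint p ∧ p * p = p ∧ InR y p ∧ ∀ φ : Rep U, φ.π p = 0 → φ.π y = 0 := by
  have hρ : 0 < γ / 2 := by positivity
  have h0 : 0 ≤ y * star y := mul_star_self_nonneg y
  have hs : IsSelfAdjoint (y * star y) := .of_nonneg h0
  have h1 : InR y (cut (y * star y) (γ / 2)) := (InR.self_mul y _).trans (inR_cut hs hρ)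
  have h2 : InR y (pl (y * star y) (γ / 2)) := (InR.self_mul y _).trans (inR_pl _ _)
  have h3 := pl_mul_cut hs hρ
  have h4 := pl_sa hs hρ
  have h5 := norm_pl_le h0 hρ
  have h6 := norm_sub_cut_le h0 hρ.le
  have h7 := cut_nonneg (y * star y) (γ / 2)
  generalize pl (y * star y) (γ / 2) = G at h2 h3 h4 h5
  generalize cut (y * star y) (γ / 2) = h' at h1 h3 h6 h7
  have hs' : IsSelfAdjoint h' := .of_nonneg h7
  have k1 : InR y (cut h' (γ / 2)) := h1.trans (inR_cut hs' hρ)
  have m0 := pl_nonneg h7 hρ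
  have m1 := pl_le_one hs' hρ
  have m2 := pl_mul_cut hs' hρ
  have m3 := pl_sa hs' hρ
  have m4 := inR_pl h' (γ / 2)
  generalize pl h' (γ / 2) = m at m0 m1 m2 m3 m4
  have m5 : G * m = m := m4.fix h3
  have m6 : m * G = m := by
    have := congrArg star m5
    rwa [star_mul, h4.star_eq, m3.star_eq] at this
  have g1 : 1 - (1 - m) * (1 - m) = m * (1 + (1 - m)) := by noncomm_ring
  have g2 : 1 - (1 - m) * (1 - m) = (1 + (1 - m)) * m := by noncomm_ring
  refine scal_core (n := 1 - m) (hy.inR k1) k1 h2 ?_ ?_ ((IsSelfAdjoint.one U).sub m3) h4 h5 ?_ ?_ ?_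
    fun φ hφ => h φ ?_
  · rw [g1]
    exact (h1.trans m4).mul _
  · rw [g1]
    exact Commute.mul_nonneg m0 (add_nonneg zero_le_one (sub_nonneg.2 m1))
      ((Commute.one_right m).add_right ((Commute.one_right m).sub_right (Commute.refl m)))
  · rw [sub_mul, one_mul, m2, sub_self]
  · rw [g1, ← mul_assoc, m5, ← g1, g2, mul_assoc, m6]
  · rw [sub_mul, mul_sub, one_mul, mul_one, m5, m6]
  · have a1 := (map_cut_eq_zero_iff φ h7 hρ.le).1 hφ
    have a2 := (φ.norm_le _).trans h6
    rw [map_sub] at a2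
    have a3 := (norm_sub_norm_le _ _).trans a2
    rw [map_mul, map_star, CStarRing.norm_self_mul_star, ← sq] at a3
    linarith

end Vale.Agent.P133
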