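import Vale.Agent.P133.Glue
import Vale.Agent.P133.Proj
import Vale.Agent.P133.Scal

/-! The case `a₁ = a₂`, `c = 1`. -/

namespace Vale.Agent.P133

universe u

variable {U : Type u} [CStarAlgebra U]

theorem Good.of_inR {c a₁ a₂ k₁ k₂ m₁ m₂ : U} {κ : ℝ} (h : Good c a₁ a₂ m₁ m₂ κ)
    (h₁ : InR k₁ m₁) (h₂ : InR k₂ m₂) : Good c a₁ a₂ k₁ k₂ κ := by
  obtain ⟨n₁, n₂, g1, g2, g3⟩ := h
  exact ⟨n₁, n₂, h₁.trans g1, h₂.trans g2, g3⟩

theorem Rep.sq_near (φ : Rep U) {x b : U} {ε : ℝ} (h : ‖star x * x - b‖ < ε) :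
    ‖φ.π x‖ ^ 2 < ‖φ.π b‖ + ε ∧ ‖φ.π b‖ < ‖φ.π x‖ ^ 2 + ε := by
  have h1 := (φ.norm_le _).trans_lt h
  rw [map_sub] at h1
  have h2 := (abs_norm_sub_norm_le _ _).trans_lt h1
  rw [φ.norm_star_mul, abs_lt] at h2
  constructor <;> linarith [h2.1, h2.2]

variable [PartialOrder U] [StarOrderedRing U]

theorem mul_self_le {u : U} (h0 : 0 ≤ u) (h1 : u ≤ 1) : u * u ≤ u := by
  have h4 : 0 ≤ u * (1 - u) :=
    Commute.mul_nonneg h0 (sub_nonneg.2 h1) ((Commute.one_right u).sub_right (Commute.refl u))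
  rw [mul_sub, mul_one] at h4
  exact sub_nonneg.1 h4

theorem le_of_fix {u w : U} (h0 : 0 ≤ u) (h1 : u ≤ 1) (w0 : 0 ≤ w) (w1 : w ≤ 1)
    (h : u * w = w) : w ≤ u := by
  have hu : IsSelfAdjoint u := .of_nonneg h0
  have hw : IsSelfAdjoint w := .of_nonneg w0
  have h' : w * u = w := by
    have := congrArg star h
    rwa [star_mul, hu.star_eq, hw.star_eq] at this
  have := hu.conjugate_le_conjugate w1
  rw [h, h', mul_one] at this
  exact this.trans (mul_self_le h0 h1)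

theorem smul_sq_le {y T : U} {t : ℝ} (ht : 0 ≤ t) (h : t • (star y * y) ≤ T) :
    t * ‖y‖ ^ 2 ≤ ‖T‖ := by
  have := CStarAlgebra.norm_le_norm_of_nonneg_of_le
    (smul_nonneg ht (star_mul_self_nonneg y)) h
  rwa [norm_smul, Real.norm_of_nonneg ht, CStarRing.norm_star_mul_self, ← sq] at this

theorem Rep.norm_le_add_cut (φ : Rep U) {W : U} (hW : 0 ≤ W) {ρ : ℝ} (hρ : 0 ≤ ρ) :
    ‖φ.π W‖ ≤ ρ + ‖φ.π (cut W ρ)‖ := by
  have e : φ.π W = φ.π (W - cut W ρ) + φ.π (cut W ρ) := by rw [← map_add, sub_add_cancel]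
  rw [e]
  exact (norm_add_le _ _).trans
    (add_le_add_left ((φ.norm_le _).trans (norm_sub_cut_le hW hρ)) _)

/-- conjugating an inequality of the form used in `comb` -/
theorem Rep.conj_ineq (φ : Rep U) {k y w : U} {t : ℝ}
    (h : t • φ.π (star k * k) ≤ φ.π (star y * w * y)) (r : U) :
    t • (star (φ.π (k * r)) * φ.π (k * r)) ≤ φ.π (star (y * r) * w * (y * r)) := by
  have := star_left_conjugate_le_conjugate h (φ.π r)
  simp only [map_mul, map_star, star_mul, mul_smul_comm, smul_mul_assoc, mul_assoc] at this ⊢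
  exact this

theorem good_same {a k₁ k₂ : U} (t₁ : Tw k₁) (t₂ : Tw k₂) (h₁ : Cov a k₁) (h₂ : Cov a k₂)
    {κ : ℝ} (hκ : 0 < κ) : Good 1 a a k₁ k₂ κ := by
  obtain ⟨b, b0, b1, hb1, hb2, hb⟩ := h₁.plat2 h₂
  obtain ⟨x, hx, hxb⟩ := pistar t₁.twin b0 hb1 (ε := 1 / 16) (by norm_num)
  obtain ⟨y, hy, hyb⟩ := pistar t₂.twin b0 hb2 (ε := 1 / 16) (by norm_num)
  have hh0 : 0 ≤ x * star x := mul_star_self_nonneg x
  set h' := cut (x * star x) (1 / 4) with hh'
  have hh'0 : 0 ≤ h' := cut_nonneg _ _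
  set e := cut h' (1 / 4) with he
  set u := pl h' (1 / 4) with hu
  have u0 : 0 ≤ u := pl_nonneg hh'0 (by norm_num)
  have u1 : u ≤ 1 := pl_le_one (cut_sa _ _) (by norm_num)
  have ue : u * e = e := pl_mul_cut (cut_sa _ _) (by norm_num)
  have ke : InR k₁ e := ((hx.mul _).trans (inR_cut (.of_nonneg hh0) (by norm_num))).trans
    (inR_cut (cut_sa _ _) (by norm_num))
  have te : Tw e := t₁.inR ke
  have ty : Tw y := t₂.inR hy
  have ce : Cov a e := by
    intro φ hφ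
    apply hb φ
    rw [he, map_cut_eq_zero_iff φ hh'0 (by norm_num)] at hφ
    have h1 := φ.norm_le_add_cut hh0 (ρ := 1 / 4) (by norm_num)
    rw [φ.norm_mul_star] at h1
    have := (φ.sq_near hxb).2
    linarith
  have cy : Cov a y := by
    intro φ hφ
    apply hb φ
    have := (φ.sq_near hyb).2
    rw [hφ, norm_zero] at this
    linarith
  set M : U := κ ^ 2 • (star y * y) - star y * u * y with hM
  have hMs : IsSelfAdjoint M :=
    IsSelfAdjoint.sub (IsSelfAdjoint.smul (IsSelfAdjoint.all _) (.star_mul_self y))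
      (.of_nonneg (star_left_conjugate_nonneg u0 _))
  have tight : ∀ φ : Rep U, φ.π (cut M 0) = 0 ↔
      κ ^ 2 • φ.π (star y * y) ≤ φ.π (star y * u * y) := by
    intro φ
    rw [map_cut_zero_eq_zero_iff φ hMs, hM, map_sub, φ.map_rsmul, sub_nonpos]
  obtain ⟨q, hq, hqd, hfac⟩ := exists_quot_gen (cut M 0)
  obtain ⟨p, ps, pp, yp, hp⟩ := exists_proj (ty.map q hq) (γ := 1 / 8) (by norm_num) (by
    intro ψ hψ
    have h1 : (q.comp ψ).π (cut M 0) = 0 := by rw [Rep.comp_apply, hqd, map_zero]; rfl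
    rw [tight] at h1
    have h2 : (q.comp ψ).π u = 0 := by
      refine (inR_pl _ _).map_eq_zero _ ?_
      rw [hh', map_cut_eq_zero_iff _ hh0 (by norm_num), Rep.norm_mul_star]
      have h3 := ((q.comp ψ).sq_near hxb).1
      have h4 := ((q.comp ψ).sq_near hyb).2
      have h5 : ‖(q.comp ψ).π y‖ ^ 2 ≤ 1 / 8 := hψ
      linarith
    rw [map_mul _ (star y * u), map_mul _ (star y) u, h2, mul_zero, zero_mul, map_mul,
      map_star] at h1
    have h6 := smul_sq_le (by positivity) h1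
    rw [norm_zero] at h6
    have h7 : ‖(q.comp ψ).π y‖ ^ 2 ≤ 0 := by
      by_contra hc
      push Not at hc
      have := mul_pos (pow_pos hκ 2) hc
      linarith
    have h8 : ‖(q.comp ψ).π y‖ = 0 := by nlinarith [norm_nonneg ((q.comp ψ).π y)]
    exact norm_eq_zero.1 h8)
  have cp : Cov (q.π a) p := fun ψ hψ => (cy.map q) ψ (hp ψ hψ)
  have n1 : ‖(1 : q.V)‖ ≤ 1 := by simpa using norm_one_sub_le (w := (0 : q.V)) le_rfl zero_le_one
  obtain ⟨m₁, m₂, pm, em, c1, c2, hcorr⟩ :=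
    good_proj ps pp (te.map q hq) n1 cp (ce.map q) (κ := κ / 4) (by positivity)
  obtain ⟨ζ', hζ1, hζ2, hζ3⟩ := c1.nrm
  obtain ⟨R', hR1, hR2, hR3⟩ := c2.nrm
  have hcr : ‖star R' * ζ'‖ ≤ κ / 4 := by
    have := hcorr ζ' R' hζ1 hR1
    rw [mul_one, ← norm_star, star_mul, star_star] at this
    refine this.trans ?_
    calc κ / 4 * ‖ζ'‖ * ‖R'‖ ≤ κ / 4 * 1 * 1 := by gcongr
      _ = κ / 4 := by ring
  obtain ⟨r', hr'⟩ := em.trans hR1
  obtain ⟨r, rfl⟩ := hq r'
  obtain ⟨s', hs'⟩ := (yp.trans pm).trans hζ1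
  obtain ⟨s, rfl⟩ := hq s'
  rw [← map_mul] at hr' hs'
  obtain ⟨l, el, hl, hcov⟩ := glue_cut (R := e * r) (d := cut M 0) te.twin ce (ρ := 1 / 4)
    (by norm_num) le_rfl (by
      intro φ hφ hn
      obtain ⟨π', hπ⟩ := hfac φ hφ
      have := hR3 { V := φ.V, π := π' } (by
        show ‖π' R'‖ < 1
        rw [hr', hπ]
        nlinarith [norm_nonneg (φ.π (e * r))])
      rw [← hπ]; exact this)
  set W := e * r * star (e * r) + l * star l with hW
  have W0 : 0 ≤ W := add_nonneg (mul_star_self_nonneg _) (mul_star_self_nonneg _)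
  have eW : InR e W := ((InR.self_mul e r).mul _).add (el.mul _)
  refine (comb W0 (by norm_num) hκ.le (ke.trans eW) hcov (k := y) ?_).of_inR (InR.refl _) hy
  intro φ hφ
  rw [one_mul] at hφ
  have wu : pl W (1 / 4) ≤ u := le_of_fix u0 u1 (pl_nonneg W0 (by norm_num))
    (pl_le_one (.of_nonneg W0) (by norm_num)) ((eW.trans (inR_pl _ _)).fix ue)
  have hd : φ.π (cut M 0) = 0 :=
    (tight φ).2 (hφ.trans (φ.mono (star_left_conjugate_le_conjugate wu y)))
  obtain ⟨π', hπ⟩ := hfac φ hd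
  have h1 := φ.conj_ineq hφ s
  have h2 : φ.π (star (y * s) * pl W (1 / 4) * (y * s)) ≤
      (4 : ℝ) • (star (φ.π (star (e * r) * (y * s))) * φ.π (star (e * r) * (y * s))) := by
    refine (φ.mono (star_left_conjugate_le_conjugate (pl_le_smul W0 (by norm_num)) (y * s))).trans
      (le_of_eq ?_)
    rw [mul_smul_comm, smul_mul_assoc, φ.map_rsmul, hW]
    simp only [mul_add, add_mul, map_add, map_mul, map_star, hl φ hd, zero_mul, mul_zero, add_zero,
      star_mul, star_star, mul_assoc]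
    norm_num
  have h3 := smul_sq_le (by positivity) (h1.trans h2)
  rw [norm_smul, CStarRing.norm_star_mul_self] at h3
  have h4 : ‖φ.π (star (e * r) * (y * s))‖ ≤ κ / 4 := by
    rw [← hπ, map_mul q.π, map_star q.π, ← hr', ← hs']
    exact (NonUnitalStarAlgHom.norm_apply_le π' _).trans hcr
  have h5 : κ ^ 2 * ‖φ.π (y * s)‖ ^ 2 ≤ κ ^ 2 * (1 / 4) := by
    refine h3.trans ?_
    rw [Real.norm_of_nonneg (by norm_num)]
    nlinarith [norm_nonneg (φ.π (star (e * r) * (y * s)))]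
  have h6 := le_of_mul_le_mul_left h5 (by positivity)
  have := hζ3 { V := φ.V, π := π' } (by
    show ‖π' ζ'‖ < 1
    rw [hs', hπ]
    nlinarith [norm_nonneg (φ.π (y * s))])
  rw [← hπ]; exact this

end Vale.Agent.P133
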